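import Vale.Agent.P181.H179.P3

set_option autoImplicit false

namespace Vale.Agent.P181.H54B

open Vale.Agent.P181 Vale.Agent.P181.H280 Vale.Agent.P181.H179 Finset MvPolynomial

variable {n a : ℕ}

/-- A nonzero highest weight form does not vanish on some filling whose column lengths are those of
the diagram of the weight. -/
theorem exists_VV_col (N : ℕ) : ∀ (c : ℕ → ℕ)
    (F : MultilinearMap ℂ (fun _ : Fin a => MvPolynomial (Fin n) ℂ) ℂ),
    HWF (fun m => (c m : ℂ)) F → F ≠ 0 → (∀ m, n ≤ m → c m = 0) → (∀ m, c m ≤ N) →
    ∃ N', N' ≤ N ∧ ∃ (l : Fin N' → ℕ) (e : Box l → Fin a), VV F l e ≠ 0 ∧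
      ∀ m, (univ.filter (fun t => m < l t)).card = c m := by
  have base : ∀ (c : ℕ → ℕ) (F : MultilinearMap ℂ (fun _ : Fin a => MvPolynomial (Fin n) ℂ) ℂ),
      HWF (fun m => (c m : ℂ)) F → F ≠ 0 → (∀ m, c m = 0) →
      ∃ (l : Fin 0 → ℕ) (e : Box l → Fin a), VV F l e ≠ 0 ∧
        ∀ m, (univ.filter (fun t => m < l t)).card = c m := by
    intro c F hF hne hc
    refine ⟨fun t => t.elim0, fun p => p.1.elim0, ?_, fun m => by rw [hc m]; simp⟩
    obtain ⟨d, hd⟩ := exists_mono hne
    have h1 : ∀ i, d i = 0 := by
      intro i
      ext m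
      have h2 := weight_mono hF d hd m
      simp only [hc] at h2
      have h3 : (∑ j, d j m) = 0 := by exact_mod_cast h2.symm
      rw [Finset.sum_eq_zero_iff] at h3
      exact h3 i (Finset.mem_univ _)
    have h2 : (fun i => (monomial (d i) 1 : MvPolynomial (Fin n) ℂ)) = fun _ => 1 := by
      funext i
      rw [h1 i]
      rfl
    rw [h2] at hd
    rw [VV]
    simp only [Finset.univ_eq_empty, Finset.prod_empty, Fintype.sum_unique, one_mul]
    exact hd
  induction N with
  | zero =>
    intro c F hF hne _ hc
    obtain ⟨l, e, h⟩ := base c F hF hne (fun m => Nat.le_zero.1 (hc m))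
    exact ⟨0, le_rfl, l, e, h⟩
  | succ N ih =>
    intro c F hF hne hn hc
    by_cases h0 : ∀ m, c m = 0
    · obtain ⟨l, e, h⟩ := base c F hF hne h0
      exact ⟨0, Nat.zero_le _, l, e, h⟩
    · push Not at h0
      obtain ⟨m0, hm0⟩ := h0
      have hm0n : m0 < n := by
        by_contra h
        exact hm0 (hn m0 (by omega))
      -- the last letter of positive weight
      set g := Nat.findGreatest (fun m => c m ≠ 0) n with hg
      have hcg : c g ≠ 0 := Nat.findGreatest_spec (P := fun m => c m ≠ 0) hm0n.le hm0
      have hgt : ∀ m, g < m → c m = 0 := by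
        intro m hm
        by_cases hmn : m ≤ n
        · by_contra hcm
          exact Nat.findGreatest_is_greatest hm hmn hcm
        · exact hn m (by omega)
      have hgn : g < n := by
        by_contra h
        exact hcg (hn g (by omega))
      have hex : ∃ e0 : Fin (g + 1) → Fin a, ctr F (fun s : Fin (g + 1) => xN n s) e0 ≠ 0 := by
        by_contra hno
        push Not at hno
        apply hne
        apply chain (l := g + 1) (by omega) hF _ hno
        intro m hm
        have h1 : (c m : ℂ) + ((g + 1 - 1 - m : ℕ) : ℂ) = ((c m + (g + 1 - 1 - m) : ℕ) : ℂ) := by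
          push_cast
          rfl
        rw [h1, Nat.cast_ne_zero]
        by_cases hmg : m = g
        · rw [hmg]
          omega
        · omega
      obtain ⟨e0, he0⟩ := hex
      have hG := HWF_ctr (l := g + 1) (by omega) hF (fun m hm => by
        rw [hgt m (by omega)]
        simp) e0
      obtain ⟨d, hd⟩ := exists_mono he0
      have hpos : ∀ m, m < g + 1 → 1 ≤ c m := by
        intro m hm
        have h1 := weight_mono hG d hd ⟨m, by omega⟩
        simp only [if_pos hm] at h1
        rw [sub_eq_iff_eq_add] at h1
        have h2 : c m = (∑ i, d i ⟨m, by omega⟩) + 1 := by exact_mod_cast h1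
        omega
      obtain ⟨N', hN', l', e', hV, hcol⟩ := ih (fun m => c m - if m < g + 1 then 1 else 0)
        (ctr F (fun s : Fin (g + 1) => xN n s) e0) (by
          have h1 : (fun m => ((c m - if m < g + 1 then 1 else 0 : ℕ) : ℂ)) =
              fun m => (c m : ℂ) - if m < g + 1 then 1 else 0 := by
            funext m
            by_cases hm : m < g + 1
            · rw [if_pos hm, if_pos hm, Nat.cast_sub (hpos m hm), Nat.cast_one]
            · rw [if_neg hm, if_neg hm, Nat.sub_zero, sub_zero]
          rw [h1]
          exact hG) he0 (by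
          intro m hm
          simp only [hn m hm, Nat.zero_sub]) (by
          intro m
          by_cases hm : m < g + 1
          · simp only [if_pos hm]
            have := hc m
            omega
          · simp only [if_neg hm, hgt m (by omega), Nat.zero_sub, Nat.zero_le])
      refine ⟨N' + 1, by omega, Fin.cons (g + 1) l', fun p =>
        Fin.cons (α := fun t => Fin ((Fin.cons (g + 1) l' : Fin (N' + 1) → ℕ) t) → Fin a) e0
          (fun t s => e' ⟨t, s⟩) p.1 p.2, ?_, ?_⟩
      · rw [VV_succ]
        exact hV
      · intro m
        have h1 : (univ.filter (fun t => m < (Fin.cons (g + 1) l' : Fin (N' + 1) → ℕ) t)).card =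
            (if m < g + 1 then 1 else 0) + (univ.filter (fun t => m < l' t)).card := by
          rw [Finset.card_filter, Fin.sum_univ_succ, Finset.card_filter]
          simp only [Fin.cons_zero, Fin.cons_succ]
        rw [h1, hcol m]
        by_cases hm : m < g + 1
        · have := hpos m hm
          simp only [if_pos hm]
          omega
        · simp only [if_neg hm]
          omega

end Vale.Agent.P181.H54B
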