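import Vale.Agent.P181.H179.P6

set_option autoImplicit false

namespace Vale.Agent.P181.H54B

open Vale.Agent.P181.H179 Finset

/-- The union bound with different bounds for the single events. -/
lemma union_bound_var {Ω P : Type*} [Fintype Ω] [Nonempty Ω] (T : Finset P) (f : P → Ω → ℝ)
    (c : P → ℝ) (hf : ∀ p ∈ T, ∀ ω, 0 ≤ f p ω) (hs : ∀ p ∈ T, ∑ ω, f p ω ≤ Fintype.card Ω * c p)
    (hc : ∑ p ∈ T, c p < 1) : ∃ ω, ∀ p ∈ T, f p ω < 1 := by
  by_contra hno
  push Not at hno
  have hpos : (0 : ℝ) < Fintype.card Ω := by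
    exact_mod_cast Fintype.card_pos
  have h1 : (Fintype.card Ω : ℝ) ≤ ∑ ω, ∑ p ∈ T, f p ω := by
    have h2 : ∀ ω ∈ (univ : Finset Ω), (1 : ℝ) ≤ ∑ p ∈ T, f p ω := by
      intro ω _
      obtain ⟨p, hp, h3⟩ := hno ω
      exact h3.trans (Finset.single_le_sum (f := fun p => f p ω) (fun p hp => hf p hp ω) hp)
    have h3 := Finset.sum_le_sum h2
    simp only [Finset.sum_const, Finset.card_univ, nsmul_eq_mul, mul_one] at h3
    exact h3
  rw [Finset.sum_comm] at h1
  have h2 := Finset.sum_le_sum hs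
  rw [← Finset.mul_sum] at h2
  have h3 : (Fintype.card Ω : ℝ) * ∑ p ∈ T, c p < Fintype.card Ω := by
    calc (Fintype.card Ω : ℝ) * ∑ p ∈ T, c p < Fintype.card Ω * 1 :=
          mul_lt_mul_of_pos_left hc hpos
      _ = _ := mul_one _
  linarith

/-- The indicator that the label `k` does not occur on `S`. -/
noncomputable def bad1 {a q N : ℕ} [NeZero q] (φ : Fin N → Fin a × Fin q) (S : Finset (Fin N))
    (k : Fin q) (γ : Fin a → Fin q) : ℝ :=
  ∏ t ∈ S, (if lb φ γ t = k then 0 else 1)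

lemma bad1_sum {a q N : ℕ} [NeZero q] (φ : Fin a → Fin N → Fin a × Fin q)
    (S : Finset (Fin N)) (i : Fin a) (hi : Set.InjOn (φ i) S) (k : Fin q) :
    ∑ ω : Fin a → (Fin a → Fin q), bad1 (φ i) S k (ω i) ≤
      Fintype.card (Fin a → (Fin a → Fin q)) * (1 - 1 / (q : ℝ)) ^ S.card := by
  classical
  have hq : (1 : ℝ) ≤ q := by
    exact_mod_cast Nat.one_le_iff_ne_zero.2 (NeZero.ne q)
  have hcardΓ : (Fintype.card (Fin a → Fin q) : ℝ) = (q : ℝ) ^ a := by
    simp
  have hpos : (0 : ℝ) < (q : ℝ) ^ a := by positivity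
  have h1 : ∑ γ, bad1 (φ i) S k γ ≤ (q : ℝ) ^ a * (1 - 1 / (q : ℝ)) ^ S.card := by
    have h2 := row_sum' (x := 0) le_rfl zero_le_one k (φ i) S hi
    rw [sub_zero] at h2
    exact h2
  have h3 := sum_update i (fun ω : Fin a → (Fin a → Fin q) => bad1 (φ i) S k (ω i))
  simp only [Function.update_self] at h3
  rw [hcardΓ] at h3
  have h5 : (q : ℝ) ^ a * ∑ ω : Fin a → (Fin a → Fin q), bad1 (φ i) S k (ω i) ≤
      (q : ℝ) ^ a * (Fintype.card (Fin a → (Fin a → Fin q)) * (1 - 1 / (q : ℝ)) ^ S.card) := by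
    rw [← h3]
    refine (Finset.sum_le_sum (fun ω _ => h1)).trans (le_of_eq ?_)
    rw [Finset.sum_const, Finset.card_univ, nsmul_eq_mul]
    ring
  exact le_of_mul_le_mul_left h5 hpos

/-- Balanced labels with all the patterns between two rows, and with all the labels on each
window `T i k`. -/
theorem sepLabW_of_bound {a q N θ s M : ℕ} (hq : 1 ≤ q) (C : Fin a → Finset (Fin N))
    (hC : ∀ i, (C i).card = q * a) (hθ : ∀ i j, i ≠ j → θ ≤ (C i ∩ C j).card)
    (T : Fin a → Fin s → Finset (Fin N)) (hT : ∀ i k, T i k ⊆ C i) (hM : ∀ i k, M ≤ (T i k).card)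
    (hb : 2 * (a * (a - 1) * (q - 1)) * (q ^ 2 - 1) ^ θ < q ^ (2 * θ))
    (hw : 2 * (a * q * s) * (q - 1) ^ M < q ^ M) :
    ∃ lab : Fin a → Fin N → Fin q, (∀ i k, ((C i).filter (fun t => lab i t = k)).card = a) ∧
      (∀ i j, i < j → ∀ k : Fin q, (k : ℕ) + 1 < q →
        ∃ t ∈ C i ∩ C j, lab i t = k ∧ lab j t = k) ∧
      (∀ i j, i < j → ∀ k k' : Fin q, (k' : ℕ) = k + 1 →
        ∃ t ∈ C i ∩ C j, lab i t = k ∧ lab j t = k') ∧
      ∀ i k κ, ∃ t ∈ T i k, lab i t = κ := by
  classical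
  haveI : NeZero q := ⟨by omega⟩
  by_cases ha : a = 0
  · subst ha
    exact ⟨fun i => i.elim0, fun i => i.elim0, fun i => i.elim0, fun i => i.elim0,
      fun i => i.elim0⟩
  have hqR : (1 : ℝ) ≤ q := by exact_mod_cast hq
  have hq0 : (0 : ℝ) < q := by linarith
  let z : Fin a × Fin q := (⟨0, by omega⟩, ⟨0, by omega⟩)
  have hE : ∀ i, Nonempty ({t // t ∈ C i} ≃ Fin a × Fin q) := by
    intro i
    refine ⟨Fintype.equivOfCardEq ?_⟩
    rw [Fintype.card_coe, hC, Fintype.card_prod, Fintype.card_fin, Fintype.card_fin, mul_comm]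
  let E : ∀ i, {t // t ∈ C i} ≃ Fin a × Fin q := fun i => (hE i).some
  let φ : Fin a → Fin N → Fin a × Fin q := fun i t => if h : t ∈ C i then E i ⟨t, h⟩ else z
  have hφ : ∀ i t (h : t ∈ C i), φ i t = E i ⟨t, h⟩ := fun i t h => dif_pos h
  have hinj : ∀ i, Set.InjOn (φ i) (C i) := by
    intro i s hs t ht hst
    have hs' : s ∈ C i := hs
    have ht' : t ∈ C i := ht
    rw [hφ i s hs', hφ i t ht'] at hst
    exact congrArg Subtype.val ((E i).injective hst)
  -- sizes
  have hsize : ∀ (γ : Fin a → Fin q) i k,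
      ((C i).filter (fun t => lb (φ i) γ t = k)).card = a := by
    intro γ i k
    have h1 : ((C i).filter (fun t => lb (φ i) γ t = k)).card =
        (univ.filter (fun r : Fin a × Fin q => r.2 + γ r.1 = k)).card := by
      apply Finset.card_bij (fun t _ => φ i t)
      · intro t ht
        rw [Finset.mem_filter] at ht ⊢
        exact ⟨Finset.mem_univ _, ht.2⟩
      · intro s hs t ht hst
        rw [Finset.mem_filter] at hs ht
        exact hinj i hs.1 ht.1 hst
      · intro r hr
        rw [Finset.mem_filter] at hr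
        refine ⟨((E i).symm r : Fin N), ?_, ?_⟩
        · rw [Finset.mem_filter]
          refine ⟨((E i).symm r).2, ?_⟩
          rw [lb, hφ i _ ((E i).symm r).2]
          simp only [Subtype.coe_eta, Equiv.apply_symm_apply]
          exact hr.2
        · rw [hφ i _ ((E i).symm r).2]
          simp only [Subtype.coe_eta, Equiv.apply_symm_apply]
    rw [h1, Finset.card_filter, Fintype.sum_prod_type]
    have h2 : ∀ β : Fin a, ∑ p : Fin q, (if p + γ β = k then 1 else 0) = 1 := by
      intro β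
      rw [Finset.sum_eq_single (k - γ β)]
      · rw [sub_add_cancel, if_pos rfl]
      · intro p _ hp
        rw [if_neg]
        intro h'
        exact hp (by rw [← h', add_sub_cancel_right])
      · intro h
        exact absurd (Finset.mem_univ _) h
    simp only [h2, Finset.sum_const, Finset.card_univ, Fintype.card_fin, smul_eq_mul, mul_one]
  -- patterns
  have hPr := card_pairs a
  set Pr : Finset (Fin a × Fin a) := univ.filter (fun p => p.1 < p.2) with hPrdef
  let kk : Fin (q - 1) → Fin q := fun k => ⟨k, by omega⟩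
  let kk' : Fin (q - 1) → Bool → Fin q := fun k d =>
    if d then ⟨k + 1, by have := k.2; omega⟩ else ⟨k, by omega⟩
  let f : (Fin a × Fin a) × (Fin (q - 1) × Bool) ⊕ Fin a × Fin s × Fin q →
      (Fin a → (Fin a → Fin q)) → ℝ :=
    Sum.elim (fun p ω => bad (φ p.1.1) (φ p.1.2) (C p.1.1 ∩ C p.1.2) (kk p.2.1) (kk' p.2.1 p.2.2)
      (ω p.1.1) (ω p.1.2)) (fun p ω => bad1 (φ p.1) (T p.1 p.2.1) p.2.2 (ω p.1))
  set x : ℝ := 1 - 1 / (q : ℝ) ^ 2 with hx
  have hx0 : 0 ≤ x := by
    rw [hx, sub_nonneg, div_le_one (by positivity)]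
    exact one_le_pow₀ hqR
  have hx1 : x ≤ 1 := by
    rw [hx]
    have : 0 ≤ 1 / (q : ℝ) ^ 2 := by positivity
    linarith
  set y : ℝ := 1 - 1 / (q : ℝ) with hy
  have hy0 : 0 ≤ y := by
    rw [hy, sub_nonneg, div_le_one (by positivity)]
    exact hqR
  have hy1 : y ≤ 1 := by
    rw [hy]
    have : 0 ≤ 1 / (q : ℝ) := by positivity
    linarith
  obtain ⟨ω, hω⟩ := union_bound_var
    ((Pr ×ˢ (univ : Finset (Fin (q - 1) × Bool))).disjSum
      (univ : Finset (Fin a × Fin s × Fin q))) f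
    (Sum.elim (fun _ => x ^ θ) (fun _ => y ^ M)) (by
      intro p _ ω
      rcases p with p | p
      · apply Finset.prod_nonneg
        intro t _
        split_ifs
        · exact le_rfl
        · exact zero_le_one
      · apply Finset.prod_nonneg
        intro t _
        split_ifs
        · exact le_rfl
        · exact zero_le_one) (by
      intro p hp
      rcases p with p | p
      · rw [Finset.inl_mem_disjSum] at hp
        have hlt : p.1.1 < p.1.2 := (Finset.mem_filter.1 (Finset.mem_product.1 hp).1).2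
        refine (bad_sum φ (C p.1.1 ∩ C p.1.2) hlt.ne ((hinj p.1.1).mono (by
          intro t ht
          exact (Finset.mem_inter.1 ht).1)) ((hinj p.1.2).mono (by
          intro t ht
          exact (Finset.mem_inter.1 ht).2)) _ _).trans ?_
        apply mul_le_mul_of_nonneg_left _ (Nat.cast_nonneg _)
        exact pow_le_pow_of_le_one hx0 hx1 (hθ _ _ hlt.ne)
      · refine (bad1_sum φ (T p.1 p.2.1) p.1 ((hinj p.1).mono (by
          intro t ht
          exact hT _ _ ht)) _).trans ?_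
        apply mul_le_mul_of_nonneg_left _ (Nat.cast_nonneg _)
        exact pow_le_pow_of_le_one hy0 hy1 (hM _ _)) (by
      rw [Finset.sum_disjSum]
      simp only [Sum.elim_inl, Sum.elim_inr, Finset.sum_const, nsmul_eq_mul]
      rw [Finset.card_product, Finset.card_univ, Finset.card_univ, Fintype.card_prod,
        Fintype.card_prod, Fintype.card_prod, Fintype.card_fin, Fintype.card_fin,
        Fintype.card_fin, Fintype.card_fin, Fintype.card_bool]
      have h1 : x = ((q ^ 2 - 1 : ℕ) : ℝ) / (q : ℝ) ^ 2 := by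
        rw [Nat.cast_sub (Nat.one_le_pow _ _ hq), hx]
        push_cast
        field_simp
      have h2 : ((Pr.card * ((q - 1) * 2) : ℕ) : ℝ) * x ^ θ < 1 / 2 := by
        have h3 : (2 * ((Pr.card * ((q - 1) * 2) : ℕ) : ℝ)) * x ^ θ < 1 := by
          rw [h1, div_pow, ← pow_mul, mul_div_assoc', div_lt_one (by positivity)]
          have h4 : (2 * ((Pr.card * ((q - 1) * 2) : ℕ) : ℝ)) * ((q ^ 2 - 1 : ℕ) : ℝ) ^ θ =
              ((2 * (Pr.card * 2 * (q - 1)) * (q ^ 2 - 1) ^ θ : ℕ) : ℝ) := by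
            push_cast
            ring
          rw [h4, hPr]
          exact_mod_cast hb
        linarith
      have h5 : y = ((q - 1 : ℕ) : ℝ) / (q : ℝ) := by
        rw [Nat.cast_sub hq, hy]
        push_cast
        field_simp
      have h6 : ((a * (s * q) : ℕ) : ℝ) * y ^ M < 1 / 2 := by
        have h7 : (2 * ((a * (s * q) : ℕ) : ℝ)) * y ^ M < 1 := by
          rw [h5, div_pow, mul_div_assoc', div_lt_one (by positivity)]
          have h8 : (2 * ((a * (s * q) : ℕ) : ℝ)) * ((q - 1 : ℕ) : ℝ) ^ M =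
              ((2 * (a * q * s) * (q - 1) ^ M : ℕ) : ℝ) := by
            push_cast
            ring
          rw [h8]
          exact_mod_cast hw
        linarith
      linarith)
  have hzero : ∀ i j, i < j → ∀ (k : Fin (q - 1)) (d : Bool),
      ∃ t ∈ C i ∩ C j, lb (φ i) (ω i) t = kk k ∧ lb (φ j) (ω j) t = kk' k d := by
    intro i j hij k d
    by_contra hno
    have h1 : f (Sum.inl ((i, j), (k, d))) ω = 1 := by
      apply Finset.prod_eq_one
      intro t ht
      rw [if_neg]
      rintro ⟨h2, h3⟩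
      exact hno ⟨t, ht, h2, h3⟩
    have h2 := hω (Sum.inl ((i, j), (k, d))) (Finset.inl_mem_disjSum.2 (Finset.mem_product.2
      ⟨Finset.mem_filter.2 ⟨Finset.mem_univ _, hij⟩, Finset.mem_univ _⟩))
    rw [h1] at h2
    exact lt_irrefl _ h2
  have hwin : ∀ i k κ, ∃ t ∈ T i k, lb (φ i) (ω i) t = κ := by
    intro i k κ
    by_contra hno
    have h1 : f (Sum.inr (i, k, κ)) ω = 1 := by
      apply Finset.prod_eq_one
      intro t ht
      rw [if_neg]
      intro h2
      exact hno ⟨t, ht, h2⟩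
    have h2 := hω (Sum.inr (i, k, κ)) (Finset.inr_mem_disjSum.2 (Finset.mem_univ _))
    rw [h1] at h2
    exact lt_irrefl _ h2
  refine ⟨fun i t => lb (φ i) (ω i) t, fun i k => hsize (ω i) i k, ?_, ?_, hwin⟩
  · intro i j hij k hk
    obtain ⟨t, ht, h1, h2⟩ := hzero i j hij ⟨k, by omega⟩ false
    exact ⟨t, ht, h1, h2⟩
  · intro i j hij k k' hk
    have := k'.2
    obtain ⟨t, ht, h1, h2⟩ := hzero i j hij ⟨k, by omega⟩ true
    refine ⟨t, ht, h1, h2.trans ?_⟩
    exact Fin.ext hk.symm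

end Vale.Agent.P181.H54B
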