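import Vale.Agent.P181.T3.Spec
import Mathlib.Combinatorics.Hall.Basic

/-!
P181, three-row extension, row A: a proper balanced regrouping of the pieces with at least as many
low pairs mixes isolated low pairs only.
-/

set_option autoImplicit false

namespace Vale.Agent.P181.T3

open Finset

private lemma cc_comm {a N : ℕ} {B : Type*} [Fintype B] [DecidableEq B] (t : B → Fin N) (r : B → Fin a)
    (m m' : Fin a) : cc t r m m' = cc t r m' m := by
  rw [cc, cc]
  congr 1
  ext c
  simp only [Finset.mem_filter, Finset.mem_univ, true_and]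
  exact and_comm

lemma mem_low {a N : ℕ} {B : Type*} [Fintype B] [DecidableEq B] {θ : ℕ} {t : B → Fin N}
    {r : B → Fin a} {p : Fin a × Fin a} :
    p ∈ (univ : Finset (Fin a × Fin a)).filter (fun p => p.1 ≠ p.2 ∧ cc t r p.1 p.2 < θ) ↔
      p.1 ≠ p.2 ∧ cc t r p.1 p.2 < θ := by
  simp

theorem struct : StructStmt := by
  intro a N Q θ Λ B _ _ t pc hQ _ hα hβ hγ y hbal hprop hlow
  classical
  set e : B → Fin a := fun x => (pc x).1 with he
  let supp : Fin a → Finset (Fin a) := fun m => univ.filter (fun i => ∃ κ, y (i, κ) = m)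
  have hsupp : ∀ m i, i ∈ supp m ↔ ∃ κ, y (i, κ) = m := by
    intro m i
    simp [supp]
  -- two rows in one new row are low
  have F1 : ∀ m i i', i ≠ i' → i ∈ supp m → i' ∈ supp m → cc t e i i' < θ := by
    intro m i i' hne hi hi'
    by_contra hge
    push Not at hge
    obtain ⟨κ, hκ⟩ := (hsupp m i).1 hi
    obtain ⟨κ', hκ'⟩ := (hsupp m i').1 hi'
    obtain ⟨x, x', ht, hx, hx'⟩ := hα i i' hne hge κ κ'
    refine hprop x x' ht ?_ ?_
    · rintro rfl
      rw [hx] at hx'
      exact hne (congrArg Prod.fst hx')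
    · rw [hx, hx', hκ, hκ']
  -- (C1)
  have C1 : ∀ m m' i i' j, i ≠ i' → i ∈ supp m → i' ∈ supp m → j ∈ supp m' →
      cc t (fun x => y (pc x)) m m' < θ → j = i ∨ j = i' := by
    intro m m' i i' j hne hi hi' hj hlt
    by_contra hno
    push Not at hno
    have key : ∀ i₀, i₀ ≠ j → i₀ ∈ supp m → cc t e i₀ j < Λ := by
      intro i₀ hi₀ hmem
      by_contra hge
      push Not at hge
      obtain ⟨κ, hκ⟩ := (hsupp m i₀).1 hmem
      obtain ⟨κ', hκ'⟩ := (hsupp m' j).1 hj
      have h1 := hβ i₀ j hi₀ hge κ κ'
      have h2 : (univ.filter (fun c => (∃ x, t x = c ∧ pc x = (i₀, κ)) ∧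
          ∃ x, t x = c ∧ pc x = (j, κ'))).card ≤ cc t (fun x => y (pc x)) m m' := by
        apply Finset.card_le_card
        intro c hc
        rw [Finset.mem_filter] at hc ⊢
        obtain ⟨-, ⟨x, hx1, hx2⟩, ⟨x', hx1', hx2'⟩⟩ := hc
        exact ⟨Finset.mem_univ _, ⟨x, hx1, by simp only [hx2, hκ]⟩,
          ⟨x', hx1', by simp only [hx2', hκ']⟩⟩
      omega
    have h1 := key i (Ne.symm hno.1) hi
    have h2 := key i' (Ne.symm hno.2) hi'
    have h3 := F1 m i i' hne hi hi'
    have h4 := hγ i i' j hne (Ne.symm hno.1) (Ne.symm hno.2)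
    omega
  -- complete rows
  have F2 : ∀ m i, supp m = {i} → ∀ p, y p = m ↔ p.1 = i := by
    intro m i hs p
    have h1 : univ.filter (fun p => y p = m) ⊆ univ.filter (fun p : Fin a × Fin Q => p.1 = i) := by
      intro p hp
      rw [Finset.mem_filter] at hp ⊢
      refine ⟨Finset.mem_univ _, ?_⟩
      have h2 : p.1 ∈ supp m := (hsupp m p.1).2 ⟨p.2, hp.2⟩
      rw [hs, Finset.mem_singleton] at h2
      exact h2
    have h2 : (univ.filter (fun p : Fin a × Fin Q => p.1 = i)).card = Q := by
      have h3 : univ.filter (fun p : Fin a × Fin Q => p.1 = i) = ({i} : Finset (Fin a)) ×ˢ univ := by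
        ext p
        rw [Finset.mem_filter, Finset.mem_product, Finset.mem_singleton]
        exact ⟨fun h => ⟨h.2, Finset.mem_univ _⟩, fun h => ⟨Finset.mem_univ _, h.1⟩⟩
      rw [h3, Finset.card_product, Finset.card_singleton, Finset.card_univ, Fintype.card_fin,
        one_mul]
    have h3 := Finset.eq_of_subset_of_card_le h1 (by rw [h2, hbal m])
    have h4 := Finset.ext_iff.1 h3 p
    simpa using h4
  -- Hall
  obtain ⟨f, hf, hfs⟩ := (Finset.all_card_le_biUnion_card_iff_exists_injective supp).1 (by
    intro S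
    have h1 : (univ.filter (fun p : Fin a × Fin Q => y p ∈ S)).card = S.card * Q := by
      rw [Finset.card_eq_sum_card_fiberwise (t := S) (f := y) (by
        intro p hp
        exact (Finset.mem_filter.1 hp).2)]
      rw [Finset.sum_const_nat (m := Q)]
      intro m hm
      refine Eq.trans ?_ (hbal m)
      congr 1
      ext p
      simp only [Finset.mem_filter, Finset.mem_univ, true_and]
      constructor
      · rintro ⟨_, h⟩
        exact h
      · intro h
        exact ⟨by rw [h]; exact hm, h⟩
    have h2 : univ.filter (fun p : Fin a × Fin Q => y p ∈ S) ⊆ (S.biUnion supp) ×ˢ univ := by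
      intro p hp
      rw [Finset.mem_product, Finset.mem_biUnion]
      exact ⟨⟨y p, (Finset.mem_filter.1 hp).2, (hsupp _ _).2 ⟨p.2, rfl⟩⟩, Finset.mem_univ _⟩
    have h3 := Finset.card_le_card h2
    rw [h1, Finset.card_product, Finset.card_univ, Fintype.card_fin] at h3
    exact Nat.le_of_mul_le_mul_right h3 hQ)
  let τ : Equiv.Perm (Fin a) := Equiv.ofBijective f (Finite.injective_iff_bijective.1 hf)
  have hτ : ∀ m, τ m ∈ supp m := hfs
  -- low pairs of y are low pairs of e
  have hmap : ∀ m m', m ≠ m' → cc t (fun x => y (pc x)) m m' < θ →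
      cc t e (τ m) (τ m') < θ := by
    have half : ∀ m m', m ≠ m' → cc t (fun x => y (pc x)) m m' < θ →
        (∃ w ∈ supp m, w ≠ τ m) → cc t e (τ m) (τ m') < θ := by
      intro m m' hne hlt ⟨w, hw, hwne⟩
      rcases C1 m m' (τ m) w (τ m') (Ne.symm hwne) (hτ m) hw (hτ m') hlt with h1 | h1
      · exact absurd (τ.injective h1).symm hne
      · rw [h1]
        exact F1 m _ _ (Ne.symm hwne) (hτ m) hw
    intro m m' hne hlt
    by_cases h1 : ∃ w ∈ supp m, w ≠ τ m
    · exact half m m' hne hlt h1
    · by_cases h2 : ∃ w ∈ supp m', w ≠ τ m'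
      · rw [cc_comm]
        exact half m' m (Ne.symm hne) (by rw [cc_comm]; exact hlt) h2
      · push Not at h1 h2
        have s1 : supp m = {τ m} := by
          ext w
          rw [Finset.mem_singleton]
          exact ⟨h1 w, fun h => by rw [h]; exact hτ m⟩
        have s2 : supp m' = {τ m'} := by
          ext w
          rw [Finset.mem_singleton]
          exact ⟨h2 w, fun h => by rw [h]; exact hτ m'⟩
        have h3 : cc t (fun x => y (pc x)) m m' = cc t e (τ m) (τ m') := by
          rw [cc, cc]
          congr 1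
          ext c
          simp only [Finset.mem_filter, Finset.mem_univ, true_and, F2 m _ s1, F2 m' _ s2, he]
        rw [← h3]
        exact hlt
  -- and conversely
  have honto : ∀ i k, i ≠ k → cc t e i k < θ →
      cc t (fun x => y (pc x)) (τ.symm i) (τ.symm k) < θ := by
    let LE := (univ : Finset (Fin a × Fin a)).filter (fun p => p.1 ≠ p.2 ∧ cc t e p.1 p.2 < θ)
    let LY := (univ : Finset (Fin a × Fin a)).filter (fun p => p.1 ≠ p.2 ∧
      cc t (fun x => y (pc x)) p.1 p.2 < θ)
    have hsub : LY.image (Prod.map τ τ) ⊆ LE := by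
      intro p hp
      obtain ⟨p', hp', rfl⟩ := Finset.mem_image.1 hp
      rw [mem_low] at hp'
      rw [mem_low]
      exact ⟨fun h => hp'.1 (τ.injective h), hmap _ _ hp'.1 hp'.2⟩
    have hcard : LE.card ≤ (LY.image (Prod.map τ τ)).card := by
      rw [Finset.card_image_of_injective _ (Function.Injective.prodMap τ.injective τ.injective)]
      exact hlow
    have heq := Finset.eq_of_subset_of_card_le hsub hcard
    intro i k hik hlt
    have h1 : (i, k) ∈ LE := by
      rw [mem_low]
      exact ⟨hik, hlt⟩
    rw [← heq] at h1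
    obtain ⟨p', hp', h2⟩ := Finset.mem_image.1 h1
    rw [mem_low] at hp'
    have h3 : τ p'.1 = i := congrArg Prod.fst h2
    have h4 : τ p'.2 = k := congrArg Prod.snd h2
    rw [← h3, ← h4, Equiv.symm_apply_apply, Equiv.symm_apply_apply]
    exact hp'.2
  refine ⟨τ, ?_⟩
  intro i κ
  by_cases hi : τ (y (i, κ)) = i
  · exact Or.inl hi
  · right
    set m := y (i, κ) with hm
    have him : i ∈ supp m := (hsupp m i).2 ⟨κ, rfl⟩
    have hlow1 : cc t e i (τ m) < θ := F1 m i (τ m) (Ne.symm hi) him (hτ m)
    refine ⟨hi, hlow1, ?_⟩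
    intro k hki hkm
    constructor
    · by_contra hlt
      push Not at hlt
      have hm1 : τ (τ.symm i) = i := Equiv.apply_symm_apply _ _
      have himem : i ∈ supp (τ.symm i) := by
        have := hτ (τ.symm i)
        rwa [hm1] at this
      have hex : ∃ j ∈ supp (τ.symm i), j ≠ i := by
        by_contra hno
        push Not at hno
        have s1 : supp (τ.symm i) = {i} := by
          ext w
          rw [Finset.mem_singleton]
          exact ⟨hno w, fun h => by rw [h]; exact himem⟩
        have h1 : y (i, κ) = τ.symm i := (F2 _ _ s1 (i, κ)).2 rfl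
        apply hi
        rw [hm, h1, hm1]
      obtain ⟨j, hj, hji⟩ := hex
      have h1 := honto i k (Ne.symm hki) hlt
      have h2 := honto i (τ m) (Ne.symm hi) hlow1
      have h3 := C1 (τ.symm i) (τ.symm k) i j k (Ne.symm hji) himem hj (by
        have := hτ (τ.symm k)
        rwa [Equiv.apply_symm_apply] at this) h1
      have h4 := C1 (τ.symm i) (τ.symm (τ m)) i j (τ m) (Ne.symm hji) himem hj (by
        have := hτ (τ.symm (τ m))
        rwa [Equiv.apply_symm_apply] at this) h2
      rcases h3 with h3 | h3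
      · exact hki h3
      · rcases h4 with h4 | h4
        · exact hi h4
        · exact hkm (h3.trans h4.symm)
    · by_contra hlt
      push Not at hlt
      have h1 := honto (τ m) k (Ne.symm hkm) hlt
      rw [Equiv.symm_apply_apply] at h1
      rcases C1 m (τ.symm k) i (τ m) k (Ne.symm hi) him (hτ m) (by
        have := hτ (τ.symm k)
        rwa [Equiv.apply_symm_apply] at this) h1 with h3 | h3
      · exact hki h3
      · exact hkm h3

end Vale.Agent.P181.T3
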