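import Mathlib.Logic.Equiv.Defs
import Mathlib.Order.Fin.Basic
import Mathlib.Data.Fintype.EquivFin
import Mathlib.Order.Interval.Finset.Fin
import Mathlib.Tactic

set_option autoImplicit false

namespace Vale.Agent.P181.H54B

open Finset

/-- A permutation of `Fin a` which fixes everything below `i` does not decrease `i`. -/
lemma le_of_fix {a : ℕ} (μ : Equiv.Perm (Fin a)) (i : Fin a) (h : ∀ j, j < i → μ j = j) :
    i ≤ μ i := by
  by_contra hlt
  push Not at hlt
  have h1 := h (μ i) hlt
  exact hlt.ne (μ.injective h1)

/-- An injective map of a finite set of `Fin a` to itself which does not decrease anything is the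
identity. -/
lemma eq_of_le_of_inj {a : ℕ} (R : Finset (Fin a)) (f : Fin a → Fin a) (hf : ∀ i ∈ R, f i ∈ R)
    (hinj : Set.InjOn f R) (hle : ∀ i ∈ R, i ≤ f i) : ∀ i ∈ R, f i = i := by
  by_contra hno
  push Not at hno
  obtain ⟨i, hi, hne⟩ := hno
  have h1 : R.image f = R := by
    apply Finset.eq_of_subset_of_card_le
    · intro j hj
      obtain ⟨i', hi', rfl⟩ := Finset.mem_image.1 hj
      exact hf i' hi'
    · rw [Finset.card_image_of_injOn hinj]
  have h2 : ∑ j ∈ R, ((f j : Fin a) : ℕ) = ∑ j ∈ R, (j : ℕ) := by
    conv_rhs => rw [← h1]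
    rw [Finset.sum_image (fun x hx y hy h => hinj hx hy h)]
  have h3 : ∑ j ∈ R, (j : ℕ) < ∑ j ∈ R, ((f j : Fin a) : ℕ) := by
    apply Finset.sum_lt_sum
    · intro j hj
      exact Fin.le_def.1 (hle j hj)
    · refine ⟨i, hi, ?_⟩
      exact Fin.lt_def.1 (lt_of_le_of_ne (hle i hi) (Ne.symm hne))
  omega

/-- **No Latin trades.** The box of the special form `k` in row `i` sits in the column
`φ i + k`, with `φ` increasing. Every special form is spread over all the rows, before (one box in
each row) and after (`μ k`). If in every column the new rows of the boxes are different, where the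
boxes which do not belong to a special form stay in their row, then all boxes stay. -/
theorem spread_id {a s : ℕ} (φ : Fin a → ℕ) (hφ : StrictMono φ) (μ : Fin s → Equiv.Perm (Fin a))
    (h : ∀ (i i' : Fin a) (k k' : Fin s), φ i + k = φ i' + k' → μ k i = μ k' i' → i = i')
    (h' : ∀ (i i' : Fin a) (k : Fin s), (∀ k' : Fin s, φ i' + k' ≠ φ i + k) → μ k i ≠ i') :
    ∀ k, μ k = 1 := by
  classical
  have key : ∀ (m : ℕ) (i : Fin a) (k : Fin s), φ i + k = m → μ k i = i := by
    intro m
    induction m using Nat.strong_induction_on with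
    | _ m ih =>
      let R : Finset (Fin a) := univ.filter (fun i => ∃ k : Fin s, φ i + k = m)
      have hR : ∀ i, i ∈ R ↔ ∃ k : Fin s, φ i + k = m := by
        intro i
        simp [R]
      let f : Fin a → Fin a := fun i =>
        if h : ∃ k : Fin s, φ i + k = m then μ h.choose i else i
      have hf : ∀ (i : Fin a) (k : Fin s), φ i + k = m → f i = μ k i := by
        intro i k hk
        have hex : ∃ k : Fin s, φ i + k = m := ⟨k, hk⟩
        have h1 : f i = μ hex.choose i := dif_pos hex
        have h2 : hex.choose = k := by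
          apply Fin.ext
          have := hex.choose_spec
          omega
        rw [h1, h2]
      have h1 : ∀ i ∈ R, f i ∈ R := by
        intro i hi
        obtain ⟨k, hk⟩ := (hR i).1 hi
        by_contra hno
        rw [hR] at hno
        push Not at hno
        rw [hf i k hk] at hno
        exact h' i (μ k i) k (by
          intro k' hk'
          exact hno k' (hk'.trans hk)) rfl
      have h2 : Set.InjOn f R := by
        intro i hi j hj hij
        obtain ⟨k, hk⟩ := (hR i).1 hi
        obtain ⟨k', hk'⟩ := (hR j).1 hj
        rw [hf i k hk, hf j k' hk'] at hij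
        exact h i j k k' (hk.trans hk'.symm) hij
      have h3 : ∀ i ∈ R, i ≤ f i := by
        intro i hi
        obtain ⟨k, hk⟩ := (hR i).1 hi
        rw [hf i k hk]
        apply le_of_fix
        intro j hj
        have h4 := hφ hj
        exact ih (φ j + k) (by omega) j k rfl
      intro i k hk
      rw [← hf i k hk]
      exact eq_of_le_of_inj R f h1 h2 h3 i ((hR i).2 ⟨k, hk⟩)
  intro k
  ext i
  rw [key _ i k rfl]
  rfl

/-- The same with a permutation `τ` of the rows for the boxes which do not belong to special
forms. -/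
theorem spread_tau {a s : ℕ} (φ : Fin a → ℕ) (hφ : StrictMono φ) (τ : Equiv.Perm (Fin a))
    (μ : Fin s → Equiv.Perm (Fin a))
    (h : ∀ (i i' : Fin a) (k k' : Fin s), φ i + k = φ i' + k' → μ k i = μ k' i' → i = i')
    (h' : ∀ (i i' : Fin a) (k : Fin s), (∀ k' : Fin s, φ i' + k' ≠ φ i + k) → μ k i ≠ τ i') :
    ∀ k, μ k = τ := by
  have h1 := spread_id φ hφ (fun k => τ⁻¹ * μ k) (by
    intro i i' k k' hk hμ
    apply h i i' k k' hk
    simpa using hμ) (by
    intro i i' k hk hμ
    apply h' i i' k hk
    rw [← hμ]
    simp)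
  intro k
  have h2 : τ⁻¹ * μ k = 1 := h1 k
  rw [inv_mul_eq_one] at h2
  exact h2.symm

/-- The staircase with a gap: `φ i = i` for `i < h` and `i + G` for `i ≥ h`. -/
def stair (a h G : ℕ) (i : Fin a) : ℕ := if (i : ℕ) < h then i else i + G

lemma stair_strictMono (a h G : ℕ) : StrictMono (stair a h G) := by
  intro i j hij
  have := Fin.lt_def.1 hij
  simp only [stair]
  split_ifs <;> omega

end Vale.Agent.P181.H54B
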