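import Vale.Agent.P181.H280.Final

set_option autoImplicit false

open scoped TensorProduct

namespace Vale.Agent.P181.H54

open Vale.Agent.P181 Vale.Agent.P181.H280

universe u

section Cons

variable {M N : Type u} [AddCommGroup M] [Module ℂ M] [AddCommGroup N] [Module ℂ N]

/-- Multiplication by a vector `w`, as a map `Sym^b M → Sym^(b+1) M`. -/
noncomputable def symCons (b : ℕ) (w : M) : (Sym[ℂ]^b M) →ₗ[ℂ] (Sym[ℂ]^(b + 1) M) :=
  symLift ((SymmetricPower.tprod ℂ (ι := Fin (b + 1)) (M := M)).curryLeft w) (fun e v => by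
    change SymmetricPower.tprod ℂ (Fin.cons w (fun i => v (e i))) =
      SymmetricPower.tprod ℂ (Fin.cons w v)
    rw [← SymmetricPower.tprod_equiv (Equiv.Perm.decomposeFin.symm (0, e)) (Fin.cons w v)]
    congr 1
    funext j
    refine Fin.cases ?_ (fun j => ?_) j
    · simp
    · simp)

lemma symCons_tprod (b : ℕ) (w : M) (v : Fin b → M) :
    symCons b w (SymmetricPower.tprod ℂ v) = SymmetricPower.tprod ℂ (Fin.cons w v) := by
  rw [symCons, symLift_tprod]
  rfl

lemma symMap_symCons (b : ℕ) (g : M →ₗ[ℂ] N) (w : M) (x : Sym[ℂ]^b M) :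
    symMap (b + 1) g (symCons b w x) = symCons b (g w) (symMap b g x) := by
  have h : symMap (b + 1) g ∘ₗ symCons b w = symCons b (g w) ∘ₗ symMap b g := by
    apply sym_hom_ext
    intro v
    rw [LinearMap.comp_apply, LinearMap.comp_apply, symCons_tprod, symMap_tprod, symMap_tprod,
      symCons_tprod]
    congr 1
    funext j
    refine Fin.cases ?_ (fun j => ?_) j
    · simp
    · simp
  exact LinearMap.congr_fun h x

lemma symCons_smul (b : ℕ) (c : ℂ) (w : M) (x : Sym[ℂ]^b M) :
    symCons b (c • w) x = c • symCons b w x := by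
  have h : symCons b (c • w) = c • symCons b w := by
    apply sym_hom_ext
    intro v
    rw [LinearMap.smul_apply, symCons_tprod, symCons_tprod]
    exact MultilinearMap.cons_smul _ _ _ _
  rw [h, LinearMap.smul_apply]

lemma symMap_comp_apply {P : Type u} [AddCommGroup P] [Module ℂ P] (b : ℕ) (g : M →ₗ[ℂ] N)
    (h : N →ₗ[ℂ] P) (x : Sym[ℂ]^b M) : symMap b h (symMap b g x) = symMap b (h ∘ₗ g) x := by
  have e : symMap b h ∘ₗ symMap b g = symMap b (h ∘ₗ g) := by
    apply sym_hom_ext
    intro v
    rw [LinearMap.comp_apply, symMap_tprod, symMap_tprod, symMap_tprod]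
    rfl
  exact LinearMap.congr_fun e x

lemma symMap_id_apply (b : ℕ) (x : Sym[ℂ]^b M) : symMap b LinearMap.id x = x := by
  have e : symMap b (LinearMap.id : M →ₗ[ℂ] M) = LinearMap.id := by
    apply sym_hom_ext
    intro v
    rw [symMap_tprod]
    rfl
  rw [e, LinearMap.id_apply]

lemma symEval_symMap (b : ℕ) (g : M →ₗ[ℂ] N) (lam : Fin b → Module.Dual ℂ N) (x : Sym[ℂ]^b M) :
    symEval lam (symMap b g x) = symEval (fun i => (lam i) ∘ₗ g) x := by
  have e : symEval lam ∘ₗ symMap b g = symEval (fun i => (lam i) ∘ₗ g) := by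
    apply sym_hom_ext
    intro v
    rw [LinearMap.comp_apply, symMap_tprod, symEval_tprod, symEval_tprod]
    rfl
  exact LinearMap.congr_fun e x

/-- `symEval` is multilinear in the functionals. -/
noncomputable def symEvalM {b : ℕ} (x : Sym[ℂ]^b M) :
    MultilinearMap ℂ (fun _ : Fin b => Module.Dual ℂ M) ℂ :=
  ((Module.Dual.eval ℂ (⨂[ℂ] _ : Fin b, M) (symSum (Fin b) M x)) ∘ₗ
    (PiTensorProduct.dualDistrib (R := ℂ) (M := fun _ : Fin b => M))).compMultilinearMap
      (PiTensorProduct.tprod ℂ)

lemma symEvalM_apply {b : ℕ} (x : Sym[ℂ]^b M) (lam : Fin b → Module.Dual ℂ M) :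
    symEvalM x lam = symEval lam x := rfl

lemma symEval_const_tprod {b : ℕ} (φ : Module.Dual ℂ M) (v : Fin b → M) :
    symEval (fun _ => φ) (SymmetricPower.tprod ℂ v) =
      (Fintype.card (Equiv.Perm (Fin b)) : ℂ) * ∏ i, φ (v i) := by
  rw [symEval_tprod]
  have h : ∀ e : Equiv.Perm (Fin b), ∏ i, φ (v (e i)) = ∏ i, φ (v i) := fun e =>
    Equiv.prod_comp e (fun i => φ (v i))
  rw [Finset.sum_congr rfl (fun e _ => h e), Finset.sum_const, nsmul_eq_mul, Finset.card_univ]

lemma symEval_const_symCons {b : ℕ} (φ : Module.Dual ℂ M) (w : M) (x : Sym[ℂ]^b M) :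
    (Fintype.card (Equiv.Perm (Fin b)) : ℂ) * symEval (fun _ => φ) (symCons b w x) =
      (Fintype.card (Equiv.Perm (Fin (b + 1))) : ℂ) * (φ w * symEval (fun _ => φ) x) := by
  have e : (Fintype.card (Equiv.Perm (Fin b)) : ℂ) • (symEval (fun _ => φ) ∘ₗ symCons b w) =
      ((Fintype.card (Equiv.Perm (Fin (b + 1))) : ℂ) * φ w) • symEval (fun _ => φ) := by
    apply sym_hom_ext
    intro v
    rw [LinearMap.smul_apply, LinearMap.smul_apply, LinearMap.comp_apply, symCons_tprod,
      symEval_const_tprod, symEval_const_tprod, Fin.prod_univ_succ]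
    simp only [Fin.cons_zero, Fin.cons_succ, smul_eq_mul]
    ring
  have h := LinearMap.congr_fun e x
  simp only [LinearMap.smul_apply, LinearMap.comp_apply, smul_eq_mul] at h
  rw [h, mul_assoc]

/-- Multiplication by a nonzero vector is injective. -/
lemma symCons_injective [Module.Finite ℂ M] {b : ℕ} {w : M} (hw : w ≠ 0) (x : Sym[ℂ]^b M)
    (hx : symCons b w x = 0) : x = 0 := by
  classical
  obtain ⟨ψ, hψ⟩ : ∃ ψ : Module.Dual ℂ M, ψ w ≠ 0 := by
    by_contra h
    apply hw
    rw [← Module.forall_dual_apply_eq_zero_iff ℂ]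
    intro φ
    by_contra h1
    exact h ⟨φ, h1⟩
  have hc : ∀ k : ℕ, (Fintype.card (Equiv.Perm (Fin k)) : ℂ) ≠ 0 := by
    intro k
    exact_mod_cast Fintype.card_ne_zero
  have h0 : ∀ φ : Module.Dual ℂ M, φ w * symEval (fun _ => φ) x = 0 := by
    intro φ
    have h1 := symEval_const_symCons φ w x
    rw [hx, map_zero, mul_zero] at h1
    exact (mul_eq_zero.1 h1.symm).resolve_left (hc _)
  -- the diagonal values vanish
  have hdiag : ∀ φ : Module.Dual ℂ M, symEvalM x (fun _ => φ) = 0 := by
    intro φ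
    let q : Polynomial ℂ := ∑ s : Finset (Fin b),
      Polynomial.C (symEvalM x (s.piecewise (fun _ => φ) (fun _ => ψ))) *
        Polynomial.X ^ (sᶜ).card
    have hq : ∀ t : ℂ, q.eval t = symEvalM x (fun _ => φ + t • ψ) := by
      intro t
      have h1 : (fun _ : Fin b => φ + t • ψ) =
          (fun _ : Fin b => φ) + t • (fun _ : Fin b => ψ) := rfl
      rw [h1, MultilinearMap.map_add_univ]
      simp only [q, Polynomial.eval_finsetSum, Polynomial.eval_mul, Polynomial.eval_C,
        Polynomial.eval_pow, Polynomial.eval_X]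
      apply Finset.sum_congr rfl
      intro s _
      have h2 : s.piecewise (fun _ : Fin b => φ) (t • (fun _ : Fin b => ψ)) =
          sᶜ.piecewise (fun i => t • (s.piecewise (fun _ : Fin b => φ) (fun _ => ψ)) i)
          (s.piecewise (fun _ => φ) (fun _ => ψ)) := by
        funext i
        by_cases hi : i ∈ s
        · simp [Finset.piecewise, hi]
        · simp [Finset.piecewise, hi]
      rw [h2, MultilinearMap.map_piecewise_smul]
      simp [mul_comm]
    have hq0 : (Polynomial.C (φ w) + Polynomial.X * Polynomial.C (ψ w)) * q = 0 := by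
      apply Polynomial.funext
      intro t
      rw [Polynomial.eval_mul, hq, Polynomial.eval_zero]
      have h1 := h0 (φ + t • ψ)
      rw [LinearMap.add_apply, LinearMap.smul_apply, smul_eq_mul] at h1
      rw [Polynomial.eval_add, Polynomial.eval_mul, Polynomial.eval_C, Polynomial.eval_C,
        Polynomial.eval_X]
      exact h1
    have hne : (Polynomial.C (φ w) + Polynomial.X * Polynomial.C (ψ w)) ≠ 0 := by
      intro h1
      apply hψ
      have h2 := congrArg (fun p => p.coeff 1) h1
      simpa [Polynomial.coeff_C] using h2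
    have h1 : q = 0 := (mul_eq_zero.1 hq0).resolve_left hne
    have h2 := hq 0
    rw [h1, Polynomial.eval_zero, zero_smul, add_zero] at h2
    exact h2.symm
  apply symEval_separates Set.univ Submodule.span_univ
  intro lam _
  have h1 := polar (symEvalM x) ⊤ (fun φ _ => hdiag φ) lam (fun _ => trivial)
  have h2 : ∀ π : Equiv.Perm (Fin b), symEvalM x (fun p => lam (π p)) = symEvalM x lam := by
    intro π
    have e : symEval (fun p => lam (π p)) = symEval lam (M := M) := by
      apply sym_hom_ext
      intro v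
      rw [symEval_tprod, symEval_tprod, ← Equiv.sum_comp (Equiv.mulRight π)]
      apply Finset.sum_congr rfl
      intro σ _
      rw [← Equiv.prod_comp π (fun i => lam i (v (σ i)))]
      rfl
    rw [symEvalM_apply, symEvalM_apply, e]
  rw [Finset.sum_congr rfl (fun π _ => h2 π), Finset.sum_const, nsmul_eq_mul,
    Finset.card_univ] at h1
  exact (mul_eq_zero.1 h1).resolve_left (hc _)

lemma multilinear_zero_of_span_fam {κ : Type*} [Fintype κ] {M' N' : Type*} [AddCommGroup M']
    [Module ℂ M'] [AddCommGroup N'] [Module ℂ N'] (Φ : MultilinearMap ℂ (fun _ : κ => M') N')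
    (S : κ → Set M') (h : ∀ w : κ → M', (∀ i, w i ∈ S i) → Φ w = 0) (w : κ → M')
    (hw : ∀ i, w i ∈ Submodule.span ℂ (S i)) : Φ w = 0 := by
  classical
  have h1 : ∀ i, ∃ l : (S i) →₀ ℂ,
      Finsupp.linearCombination ℂ (Subtype.val : (S i) → M') l = w i := by
    intro i
    rw [← Finsupp.mem_span_iff_linearCombination]
    exact hw i
  choose l hl using h1
  have h2 : w = fun i => ∑ r ∈ (l i).support, (l i r) • (r : M') := by
    funext i
    rw [← hl i, Finsupp.linearCombination_apply, Finsupp.sum]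
  rw [h2, MultilinearMap.map_sum_finset]
  apply Finset.sum_eq_zero
  intro r _
  rw [MultilinearMap.map_smul_univ, h _ (fun i => (r i).2), smul_zero]

end Cons

end Vale.Agent.P181.H54
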