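import Vale.Agent.P181.LK.Spec

/-!
P181, rows LK: removal of all special groups (`RowR2` from `RowR1`).
-/

set_option autoImplicit false

namespace Vale.Agent.P181.H54.R2

open Vale.Agent.P181 Vale.Agent.P181.LK Finset

theorem sum_update {u : ℕ} {P : Type} [Fintype P] [DecidableEq P] (j : Fin u)
    (f : (Fin u → P) → ℂ) :
    ∑ σ : P, ∑ τ : Fin u → P, f (Function.update τ j σ) =
      (Fintype.card P : ℂ) * ∑ τ : Fin u → P, f τ := by
  classical
  have h : ∑ x : P × (Fin u → P), f (Function.update x.2 j x.1) =
      ∑ x : P × (Fin u → P), f x.2 := by
    refine Fintype.sum_equiv (⟨fun x => (x.2 j, Function.update x.2 j x.1),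
      fun x => (x.2 j, Function.update x.2 j x.1), fun x => ?_, fun x => ?_⟩ :
      (P × (Fin u → P)) ≃ (P × (Fin u → P))) _ _ (fun x => rfl)
    · simp
    · simp
  rw [Fintype.sum_prod_type, Fintype.sum_prod_type] at h
  refine h.trans ?_
  show ∑ _x : P, ∑ y : Fin u → P, f y = _
  rw [sum_const, card_univ, nsmul_eq_mul]

theorem split {B : Type} [DecidableEq B] (Z : Finset B) (P Q : B → Prop) [DecidablePred P]
    [DecidablePred Q] :
    (Z.filter Q).card = ((Z.filter P).filter Q).card +
      ((Z.filter (fun p => ¬ P p)).filter Q).card := by
  rw [← card_union_of_disjoint]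
  · congr 1
    ext p
    simp only [mem_union, mem_filter]
    tauto
  · rw [disjoint_left]
    intro p hp hp'
    simp only [mem_filter] at hp hp'
    exact hp'.1.2 hp.1.2

theorem rowR2 (hR1 : RowR1) : RowR2 := by
  classical
  intro B _ _ a u G r V gr Z hZ hr β e0 π hπ h1r hstar
  have key : ∀ n : ℕ, ∀ K : Finset (Fin u), Kᶜ.card = n →
      ∀ e : B → Fin a, (∀ p, (∀ g, p ∉ Z g) → e p = e0 p) →
      (∀ g i, ((Z g).filter (fun p => e p = i)).card = β g i) →
      ∀ sp : B → Option (Fin u), (∀ p k, sp p = some k → k ∈ K ∧ p ∈ Z (gr k)) →
      (∀ k ∈ K, ∀ i, ∃ p, sp p = some k ∧ e p = i) →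
      (∀ k p p', sp p = some k → sp p' = some k → e p = e p' → p = p') →
      ∑ τ : Fin u → Equiv.Perm (Fin a), V (sprU sp τ e) = 0 := by
    intro n
    induction n with
    | zero =>
      intro K hK e he hβ sp h1 h2 h3
      have hK' : ∀ k, k ∈ K := by
        intro k
        by_contra h
        have h4 : k ∈ Kᶜ := mem_compl.2 h
        rw [card_eq_zero] at hK
        rw [hK] at h4
        exact notMem_empty _ h4
      exact hstar e he hβ sp (fun p k h => (h1 p k h).2) (fun k i => h2 k (hK' k) i) h3
    | succ n ih =>
      intro K hK e he hβ sp h1 h2 h3
      obtain ⟨j, hj⟩ : ∃ j, j ∈ Kᶜ := card_pos.1 (by omega)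
      have hjK : j ∉ K := mem_compl.1 hj
      have hins : ((insert j K)ᶜ).card = n := by
        rw [compl_insert, card_erase_of_mem hj]
        omega
      obtain ⟨Z', hZ'⟩ : ∃ Z', Z' = (Z (gr j)).filter (fun p => sp p = none) := ⟨_, rfl⟩
      have hZ'mem : ∀ p, p ∈ Z' ↔ p ∈ Z (gr j) ∧ sp p = none := by
        intro p
        rw [hZ', mem_filter]
      have hpl : ∀ p k, sp p = some k → p ∉ Z' := by
        intro p k hk hp
        rw [((hZ'mem p).1 hp).2] at hk
        exact absurd hk (by simp)
      refine hR1 B a (fun e' => ∑ τ : Fin u → Equiv.Perm (Fin a), V (sprU sp τ e')) Z'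
        (fun i => (Z'.filter (fun p => e p = i)).card) e (π (gr j)) ?_ ?_ e (fun _ _ => rfl)
        (fun _ => rfl)
      · intro m
        obtain ⟨i, hi⟩ : ∃ i, i = π (gr j) m := ⟨_, rfl⟩
        have h4 := hπ (gr j) m
        rw [← hi, ← hβ, split (Z (gr j)) (fun p => sp p = none) (fun p => e p = i), ← hZ'] at h4
        have h5 : (((Z (gr j)).filter (fun p => ¬ sp p = none)).filter (fun p => e p = i)).card ≤
            ((univ.filter (fun k => gr k = gr j)).erase j).card := by
          refine card_le_card_of_injOn (fun p => (sp p).getD j) ?_ ?_
          · intro p hp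
            have hp' := mem_filter.1 hp
            have hp'' := mem_filter.1 hp'.1
            obtain ⟨k, hk⟩ := Option.ne_none_iff_exists'.1 hp''.2
            have h6 := h1 p k hk
            have h7 : (fun p => (sp p).getD j) p = k := by
              show (sp p).getD j = k
              rw [hk]
              rfl
            rw [h7]
            refine mem_coe.2 (mem_erase.2 ⟨?_, mem_filter.2 ⟨mem_univ _, ?_⟩⟩)
            · intro h8
              rw [h8] at h6
              exact hjK h6.1
            · by_contra h8
              exact (disjoint_left.1 (hZ _ _ h8)) h6.2 hp''.1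
          · intro p hp p' hp' hpp
            have hq := mem_filter.1 (mem_coe.1 hp)
            have hq' := mem_filter.1 (mem_coe.1 hp')
            obtain ⟨k, hk⟩ := Option.ne_none_iff_exists'.1 (mem_filter.1 hq.1).2
            obtain ⟨k', hk'⟩ := Option.ne_none_iff_exists'.1 (mem_filter.1 hq'.1).2
            have h6 : (sp p).getD j = (sp p').getD j := hpp
            rw [hk, hk'] at h6
            have h7 : k = k' := h6
            rw [← h7] at hk'
            exact h3 k p p' hk hk' (by rw [hq.2, hq'.2])
        have h6 : ((univ.filter (fun k => gr k = gr j)).erase j).card =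
            (univ.filter (fun k => gr k = gr j)).card - 1 :=
          card_erase_of_mem (mem_filter.2 ⟨mem_univ _, rfl⟩)
        have h7 := hr (gr j)
        show (m : ℕ) + 1 ≤ (Z'.filter (fun p => e p = π (gr j) m)).card
        rw [← hi]
        omega
      · intro e' he' hβ' s hs hes
        have hsinj : ∀ i i', s i = s i' → i = i' := by
          intro i i' h
          rw [← hes i, h, hes]
        obtain ⟨sp', hsp'⟩ : ∃ sp' : B → Option (Fin u), sp' = fun p =>
          if ∃ i, s i = p then some j else sp p := ⟨_, rfl⟩
        have hsp1 : ∀ i, sp' (s i) = some j := by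
          intro i
          rw [hsp']
          show (if ∃ i', s i' = s i then some j else sp (s i)) = some j
          rw [if_pos ⟨i, rfl⟩]
        have hsp2 : ∀ p, (∀ i, s i ≠ p) → sp' p = sp p := by
          intro p hp
          rw [hsp']
          show (if ∃ i', s i' = p then some j else sp p) = sp p
          rw [if_neg fun ⟨i, hi⟩ => hp i hi]
        have hsnone : ∀ i, sp (s i) = none := fun i => ((hZ'mem _).1 (hs i)).2
        have hne : ∀ p k, sp p = some k → ∀ i, s i ≠ p := by
          intro p k hk i hi
          rw [← hi, hsnone i] at hk
          exact absurd hk (by simp)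
        have he2 : ∀ p, p ∉ Z' → e' p = e p := he'
        have hsum := ih (insert j K) hins e' (fun p hp => by
            rw [he2 p (fun h => hp _ ((hZ'mem p).1 h).1)]
            exact he p hp)
          (fun g i => by
            rw [← hβ g i]
            by_cases hg : g = gr j
            · subst hg
              rw [split (Z (gr j)) (fun p => sp p = none) (fun p => e' p = i),
                split (Z (gr j)) (fun p => sp p = none) (fun p => e p = i), ← hZ', hβ' i]
              congr 2
              refine filter_congr fun p hp => ?_
              have h4 : p ∉ Z' := fun h => (mem_filter.1 hp).2 ((hZ'mem p).1 h).2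
              rw [he2 p h4]
            · congr 1
              refine filter_congr fun p hp => ?_
              rw [he2 p fun h => (disjoint_left.1 (hZ _ _ hg)) hp ((hZ'mem p).1 h).1])
          sp'
          (fun p k hk => by
            by_cases hp : ∃ i, s i = p
            · obtain ⟨i, hi⟩ := hp
              rw [← hi, hsp1 i] at hk
              have h4 : j = k := Option.some.inj hk
              rw [← h4, ← hi]
              exact ⟨mem_insert_self _ _, ((hZ'mem _).1 (hs i)).1⟩
            · rw [hsp2 p fun i hi => hp ⟨i, hi⟩] at hk
              exact ⟨mem_insert_of_mem (h1 p k hk).1, (h1 p k hk).2⟩)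
          (fun k hk i => by
            rcases mem_insert.1 hk with hk' | hk'
            · rw [hk']
              exact ⟨s i, hsp1 i, hes i⟩
            · obtain ⟨p, hp, hpe⟩ := h2 k hk' i
              exact ⟨p, by rw [hsp2 p (hne p k hp)]; exact hp, by
                rw [he2 p (hpl p k hp)]
                exact hpe⟩)
          (fun k p p' hp hp' hee => by
            by_cases hq : ∃ i, s i = p
            · obtain ⟨i, hi⟩ := hq
              have h4 : j = k := by
                rw [← hi, hsp1 i] at hp
                exact Option.some.inj hp
              by_cases hq' : ∃ i, s i = p'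
              · obtain ⟨i', hi'⟩ := hq'
                have h5 : i = i' := by
                  rw [← hes i, ← hes i', hi, hi']
                  exact hee
                rw [← hi, ← hi', h5]
              · exfalso
                rw [hsp2 p' fun i hi => hq' ⟨i, hi⟩] at hp'
                have h5 := (h1 p' k hp').1
                rw [← h4] at h5
                exact hjK h5
            · have h4 : sp p = some k := by
                rw [← hsp2 p fun i hi => hq ⟨i, hi⟩]
                exact hp
              have hkj : k ≠ j := by
                intro h
                rw [h] at h4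
                exact hjK (h1 p j h4).1
              have hq' : ∀ i, s i ≠ p' := by
                intro i hi
                rw [← hi, hsp1 i] at hp'
                exact hkj (Option.some.inj hp').symm
              have h5 : sp p' = some k := by
                rw [← hsp2 p' hq']
                exact hp'
              refine h3 k p p' h4 h5 ?_
              rw [← he2 p (hpl p k h4), ← he2 p' (hpl p' k h5)]
              exact hee)
        have hpt : ∀ (σ : Equiv.Perm (Fin a)) (τ : Fin u → Equiv.Perm (Fin a)),
            sprU sp τ (spr s σ e') = sprU sp' (Function.update τ j σ) e' := by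
          intro σ τ
          funext p
          unfold sprU
          by_cases hp : ∃ i, s i = p
          · obtain ⟨i, hi⟩ := hp
            subst hi
            rw [hsnone i, hsp1 i]
            show spr s σ e' (s i) = (Function.update τ j σ) j (e' (s i))
            rw [Function.update_self, hes i]
            unfold spr
            have hex : ∃ i', s i' = s i := ⟨i, rfl⟩
            rw [dif_pos hex, hsinj _ _ hex.choose_spec]
          · rw [hsp2 p fun i hi => hp ⟨i, hi⟩]
            have hspr : spr s σ e' p = e' p := by
              unfold spr
              rw [dif_neg hp]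
            rcases hk : sp p with _ | k
            · exact hspr
            · show τ k (spr s σ e' p) = (Function.update τ j σ) k (e' p)
              have hkj : k ≠ j := by
                intro h
                rw [h] at hk
                exact hjK (h1 p j hk).1
              rw [hspr, Function.update_of_ne hkj]
        show ∑ σ : Equiv.Perm (Fin a), ∑ τ : Fin u → Equiv.Perm (Fin a),
          V (sprU sp τ (spr s σ e')) = 0
        simp only [hpt]
        rw [sum_update j (fun τ => V (sprU sp' τ e')), hsum, mul_zero]
  intro e he hβ
  have h := key _ ∅ rfl e he hβ (fun _ => none) (fun p k h => absurd h (by simp))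
    (fun k hk => absurd hk (notMem_empty k)) (fun k p p' h => absurd h (by simp))
  have h2 : ∀ τ : Fin u → Equiv.Perm (Fin a), sprU (fun _ => none) τ e = e := fun τ => rfl
  simp only [h2, sum_const, card_univ, nsmul_eq_mul] at h
  rcases mul_eq_zero.1 h with h | h
  · exact absurd h (by exact_mod_cast Fintype.card_ne_zero)
  · exact h

end Vale.Agent.P181.H54.R2
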