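import Vale.Agent.P181.H54.Cons

set_option autoImplicit false

open scoped TensorProduct

namespace Vale.Agent.P181.H54

open Vale.Agent.P181 Vale.Agent.P181.H280 MvPolynomial

section Weights

variable {n : ℕ}

/-- The value of the form of `l` at the monomials `∏_j X_{c (i, j)}`. -/
noncomputable def coef {a b : ℕ} (l : (Fin a → Fin b → (Fin n → ℂ)) →₀ ℂ)
    (c : Fin a × Fin b → Fin n) : ℂ :=
  formOf l (fun i => ∏ j, (X (c (i, j)) : MvPolynomial (Fin n) ℂ))

lemma coef_eq_rowProd {a b : ℕ} (l : (Fin a → Fin b → (Fin n → ℂ)) →₀ ℂ)
    (c : Fin a × Fin b → Fin n) :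
    coef l c = rowProd b (formOf l) (fun p => X (c p)) := by
  rw [rowProd_apply]
  rfl

lemma symEval_elOf {a b : ℕ} (l : (Fin a → Fin b → (Fin n → ℂ)) →₀ ℂ)
    (c : Fin a × Fin b → Fin n) :
    symEval (fun i => symEval (fun j => (LinearMap.proj (c (i, j)) :
      (Fin n → ℂ) →ₗ[ℂ] ℂ))) (elOf l) = coef l c :=
  (formOf_lin l (fun i j => X (c (i, j))) (fun i j => LinearMap.proj (c (i, j)))
    (fun i j => evL_X _)).symm

lemma coef_act {a b : ℕ} (lam : Fin n → ℕ) (l : (Fin a → Fin b → (Fin n → ℂ)) →₀ ℂ)
    (hx : elOf l ∈ hwSpace lam (plethAct a b n)) (c : Fin a × Fin b → Fin n)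
    (g : Matrix (Fin n) (Fin n) ℂ) (p : Fin a → Fin b → MvPolynomial (Fin n) ℂ)
    (hg : IsBorel g) (hp : ∀ i j, evL n (p i j) = fun v => (Matrix.toLin' g v) (c (i, j))) :
    formOf l (fun i => ∏ j, p i j) = (∏ i, g i i ^ lam i) * coef l c := by
  have h1 := formOf_lin l p (fun i j => (LinearMap.proj (c (i, j))) ∘ₗ Matrix.toLin' g)
    (fun i j => hp i j)
  rw [h1, ← symEval_act (Matrix.toLin' g) (fun i j => LinearMap.proj (c (i, j))) (elOf l)]
  have h2 : symMap a (symMap b (Matrix.toLin' g)) (elOf l) =
      (∏ i, g i i ^ lam i) • elOf l := hx g hg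
  rw [h2, map_smul, smul_eq_mul]
  congr 1
  exact symEval_elOf l c

/-- Weights. -/
lemma coef_wt {a b : ℕ} (lam : Fin n → ℕ) (l : (Fin a → Fin b → (Fin n → ℂ)) →₀ ℂ)
    (hx : elOf l ∈ hwSpace lam (plethAct a b n)) (c : Fin a × Fin b → Fin n) (M : Fin n)
    (hz : coef l c ≠ 0) :
    (Finset.univ.filter (fun p : Fin a × Fin b => c p = M)).card = lam M := by
  classical
  have h3 := coef_act lam l hx c (Matrix.diagonal (Function.update 1 M 2))
    (fun i j => (Function.update (1 : Fin n → ℂ) M 2 (c (i, j))) • X (c (i, j))) (by
      constructor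
      · intro i j hij
        exact Matrix.diagonal_apply_ne _ hij.ne'
      · intro i
        rw [Matrix.diagonal_apply_eq]
        by_cases hi : i = M
        · rw [hi, Function.update_self]; norm_num
        · rw [Function.update_of_ne hi]; norm_num) (by
      intro i j
      rw [map_smul, evL_X]
      funext v
      rw [Matrix.toLin'_apply, Matrix.mulVec_diagonal]
      rfl)
  have h4 : formOf l (fun i => ∏ j,
      (Function.update (1 : Fin n → ℂ) M 2 (c (i, j))) •
        (X (c (i, j)) : MvPolynomial (Fin n) ℂ)) =
      (∏ p : Fin a × Fin b, Function.update (1 : Fin n → ℂ) M 2 (c p)) * coef l c := by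
    have h5 := MultilinearMap.map_smul_univ (rowProd b (formOf l))
      (fun p : Fin a × Fin b => Function.update (1 : Fin n → ℂ) M 2 (c p))
      (fun p => (X (c p) : MvPolynomial (Fin n) ℂ))
    rw [← coef_eq_rowProd, rowProd_apply, smul_eq_mul] at h5
    exact h5
  rw [h4] at h3
  have h6 := mul_right_cancel₀ hz h3
  have h7 : ∏ p : Fin a × Fin b, Function.update (1 : Fin n → ℂ) M 2 (c p) =
      2 ^ (Finset.univ.filter (fun p : Fin a × Fin b => c p = M)).card := by
    rw [← Finset.prod_const, Finset.prod_filter]
    apply Finset.prod_congr rfl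
    intro p _
    by_cases hp : c p = M
    · rw [hp, Function.update_self, if_pos rfl]
    · rw [Function.update_of_ne hp, if_neg hp]
      rfl
  have h8 : ∏ i, (Matrix.diagonal (Function.update (1 : Fin n → ℂ) M 2)) i i ^ lam i =
      2 ^ lam M := by
    rw [Finset.prod_eq_single M]
    · rw [Matrix.diagonal_apply_eq, Function.update_self]
    · intro i _ hi
      rw [Matrix.diagonal_apply_eq, Function.update_of_ne hi]
      simp
    · intro hh
      exact absurd (Finset.mem_univ _) hh
  rw [h7, h8] at h6
  have h10 : (2 : ℕ) ^ (Finset.univ.filter (fun p : Fin a × Fin b => c p = M)).card =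
      2 ^ lam M := by
    exact_mod_cast h6
  exact Nat.pow_right_injective le_rfl h10

/-- Raising operators. -/
lemma coef_rel {a b : ℕ} (lam : Fin n → ℕ) (l : (Fin a → Fin b → (Fin n → ℂ)) →₀ ℂ)
    (hx : elOf l ∈ hwSpace lam (plethAct a b n)) (c : Fin a × Fin b → Fin n) (M K : Fin n)
    (hMK : M < K) :
    ∑ p, (if c p = M then coef l (Function.update c p K) else 0) = 0 := by
  classical
  let y : Fin a × Fin b → MvPolynomial (Fin n) ℂ := fun p => X (c p)
  let z : Fin a × Fin b → MvPolynomial (Fin n) ℂ := fun p => if c p = M then X K else 0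
  have h1 : ∑ p, rowProd b (formOf l) (Function.update y p (z p)) = 0 := by
    apply first_order' (rowProd b (formOf l)) y z (coef l c)
    intro t
    rw [rowProd_apply]
    have h3 := coef_act lam l hx c (Matrix.transvection M K t)
      (fun i j => y (i, j) + t • z (i, j)) (by
        constructor
        · intro i j hij
          rw [Matrix.transvection, Matrix.add_apply, Matrix.one_apply_ne hij.ne',
            Matrix.single_apply_of_ne, add_zero]
          rintro ⟨rfl, rfl⟩
          exact absurd hij (not_lt.2 hMK.le)
        · intro i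
          rw [Matrix.transvection, Matrix.add_apply, Matrix.one_apply_eq,
            Matrix.single_apply_of_ne, add_zero]
          · exact one_ne_zero
          · rintro ⟨rfl, h5⟩
            exact hMK.ne h5.symm) (by
        intro i j
        simp only [y, z]
        rw [map_add, map_smul, evL_X]
        funext v
        rw [Matrix.toLin'_apply, Matrix.transvection, Matrix.add_mulVec, Matrix.one_mulVec]
        rw [Pi.add_apply, Pi.add_apply, Pi.smul_apply]
        congr 1
        by_cases hp : c (i, j) = M
        · rw [if_pos hp, evL_X, hp]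
          simp [Matrix.mulVec, dotProduct, Matrix.single_apply]
        · rw [if_neg hp, map_zero]
          simp [Matrix.mulVec, dotProduct, Ne.symm hp])
    rw [h3]
    have h8 : ∏ i, (Matrix.transvection M K t) i i ^ lam i = 1 := by
      apply Finset.prod_eq_one
      intro i _
      rw [Matrix.transvection, Matrix.add_apply, Matrix.one_apply_eq,
        Matrix.single_apply_of_ne, add_zero, one_pow]
      rintro ⟨rfl, h5⟩
      exact hMK.ne h5.symm
    rw [h8, one_mul]
  refine Eq.trans (Finset.sum_congr rfl ?_) h1
  intro p _
  simp only [z]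
  split_ifs with hp
  · rw [coef_eq_rowProd]
    congr 1
    funext q
    simp only [y]
    by_cases hq : q = p
    · subst hq
      rw [Function.update_self, Function.update_self]
    · rw [Function.update_of_ne hq, Function.update_of_ne hq]
  · exact (MultilinearMap.map_update_zero (rowProd b (formOf l)) y p).symm

lemma coef_congr {a b : ℕ} (l : (Fin a → Fin b → (Fin n → ℂ)) →₀ ℂ)
    (c c' : Fin a × Fin b → Fin n)
    (h : ∀ i, ∏ j, (X (c (i, j)) : MvPolynomial (Fin n) ℂ) = ∏ j, X (c' (i, j))) :
    coef l c = coef l c' := by
  rw [coef, coef]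
  congr 1
  funext i
  exact h i

lemma prod_update_swap {b : ℕ} (g : Fin b → Fin n) (j0 j : Fin b) (u : Fin n)
    (hj : Function.update g j0 u j = u) :
    ∏ j', (X (Function.update (Function.update g j0 u) j (g j0) j') : MvPolynomial (Fin n) ℂ) =
      ∏ j', X (g j') := by
  classical
  by_cases h : j = j0
  · subst h
    rw [Function.update_idem, Function.update_eq_self]
  · rw [Function.update_of_ne h] at hj
    rw [← Equiv.prod_comp (Equiv.swap j0 j) (fun j' => (X (g j') : MvPolynomial (Fin n) ℂ))]
    apply Finset.prod_congr rfl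
    intro j' _
    congr 1
    by_cases h1 : j' = j
    · subst h1
      rw [Function.update_self, Equiv.swap_apply_right]
    · rw [Function.update_of_ne h1]
      by_cases h2 : j' = j0
      · subst h2
        rw [Function.update_self, Equiv.swap_apply_left, hj]
      · rw [Function.update_of_ne h2, Equiv.swap_apply_of_ne_of_ne h2 h1]

end Weights

/-- **Divisibility.** If all rows of `lam` but the first have length at most `b`, the form (in
degree `b + 1`) of a highest weight vector vanishes as soon as one argument does not involve the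
first coordinate. -/
lemma coef_zero {m a b : ℕ} (lam : Fin (m + 1) → ℕ)
    (l : (Fin a → Fin (b + 1) → (Fin (m + 1) → ℂ)) →₀ ℂ)
    (hx : elOf l ∈ hwSpace lam (plethAct a (b + 1) (m + 1)))
    (hlam : ∀ M : Fin (m + 1), M ≠ 0 → lam M ≤ b)
    (i0 : Fin a) : ∀ (N : ℕ) (c : Fin a × Fin (b + 1) → Fin (m + 1)),
      (Finset.univ.filter (fun j : Fin (b + 1) => (c (i0, j) : ℕ) ≠ 1)).card = N →
      (∀ j, c (i0, j) ≠ 0) → coef l c = 0 := by
  classical
  intro N
  induction N using Nat.strong_induction_on with
  | _ N ih =>
    intro c hN hc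
    have hm : 0 < m := by
      rcases Nat.eq_zero_or_pos m with h | h
      · subst h
        exact absurd (Fin.ext (by omega)) (hc 0)
      · exact h
    set one : Fin (m + 1) := ⟨1, by omega⟩ with hone
    have hone0 : one ≠ 0 := by
      intro h
      have := congrArg Fin.val h
      simp [hone] at this
    by_cases hall : ∀ j, c (i0, j) = one
    · by_contra hz
      have h1 := coef_wt lam l hx c one hz
      have h2 : b + 1 ≤ (Finset.univ.filter
          (fun p : Fin a × Fin (b + 1) => c p = one)).card := by
        have h3 : (Finset.univ.image (fun j : Fin (b + 1) => (i0, j))) ⊆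
            Finset.univ.filter (fun p : Fin a × Fin (b + 1) => c p = one) := by
          intro p hp
          rw [Finset.mem_image] at hp
          obtain ⟨j, -, rfl⟩ := hp
          rw [Finset.mem_filter]
          exact ⟨Finset.mem_univ _, hall j⟩
        have h4 := Finset.card_le_card h3
        rwa [Finset.card_image_of_injective _ (fun j j' h => congrArg Prod.snd h),
          Finset.card_univ, Fintype.card_fin] at h4
      have h5 := hlam one hone0
      omega
    · rw [not_forall] at hall
      obtain ⟨j0, hj0⟩ := hall
      set K := c (i0, j0) with hK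
      have hK1 : (K : ℕ) ≠ 1 := fun h => hj0 (Fin.ext h)
      have hK0 : (K : ℕ) ≠ 0 := fun h => hc j0 (Fin.ext h)
      have hlt : one < K := by
        rw [Fin.lt_def]
        change 1 < (K : ℕ)
        omega
      set c' : Fin a × Fin (b + 1) → Fin (m + 1) := Function.update c (i0, j0) one with hc'
      have hrow : ∀ j, c' (i0, j) = Function.update (fun j => c (i0, j)) j0 one j := by
        intro j
        by_cases h : j = j0
        · subst h
          rw [hc', Function.update_self, Function.update_self]
        · rw [hc', Function.update_of_ne (fun hh => h (congrArg Prod.snd hh)),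
            Function.update_of_ne h]
      have hc'0 : ∀ j, c' (i0, j) ≠ 0 := by
        intro j
        rw [hrow]
        by_cases h : j = j0
        · rw [h, Function.update_self]; exact hone0
        · rw [Function.update_of_ne h]; exact hc j
      have hcard : (Finset.univ.filter (fun j : Fin (b + 1) => (c' (i0, j) : ℕ) ≠ 1)).card < N := by
        rw [← hN]
        apply Finset.card_lt_card
        rw [Finset.ssubset_iff_of_subset]
        · refine ⟨j0, ?_, ?_⟩
          · rw [Finset.mem_filter]
            exact ⟨Finset.mem_univ _, hK1⟩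
          · rw [Finset.mem_filter, hrow, Function.update_self]
            intro h
            exact h.2 rfl
        · intro j hj
          rw [Finset.mem_filter] at hj ⊢
          refine ⟨Finset.mem_univ _, ?_⟩
          have h1 := hj.2
          rw [hrow] at h1
          by_cases h : j = j0
          · rw [h, Function.update_self] at h1
            exact absurd rfl h1
          · rwa [Function.update_of_ne h] at h1
      have hrel := coef_rel lam l hx c' one K hlt
      have hterm : ∀ p : Fin a × Fin (b + 1),
          (if c' p = one then coef l (Function.update c' p K) else 0) =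
          (if c' p = one ∧ p.1 = i0 then coef l c else 0) := by
        rintro ⟨i, j⟩
        by_cases h1 : c' (i, j) = one
        · rw [if_pos h1]
          by_cases h2 : i = i0
          · subst h2
            rw [if_pos ⟨h1, rfl⟩]
            apply coef_congr
            intro i'
            by_cases h3 : i' = i
            · subst h3
              have h4 := prod_update_swap (fun j => c (i', j)) j0 j one (by
                rw [← hrow]; exact h1)
              rw [← h4]
              apply Finset.prod_congr rfl
              intro j' _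
              congr 1
              by_cases h5 : j' = j
              · subst h5
                rw [Function.update_self, Function.update_self]
              · rw [Function.update_of_ne (fun hh => h5 (congrArg Prod.snd hh)),
                  Function.update_of_ne h5]
                exact hrow j'
            · apply Finset.prod_congr rfl
              intro j' _
              rw [Function.update_of_ne (fun hh => h3 (congrArg Prod.fst hh)), hc',
                Function.update_of_ne (fun hh => h3 (congrArg Prod.fst hh))]
          · rw [if_neg (fun hh => h2 hh.2)]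
            have h3 : ∀ j', Function.update c' (i, j) K (i0, j') = c' (i0, j') := by
              intro j'
              rw [Function.update_of_ne (fun hh => h2 (congrArg Prod.fst hh).symm)]
            apply ih _ hcard
            · congr 1
              ext j'
              rw [Finset.mem_filter, Finset.mem_filter, h3]
            · intro j'
              rw [h3]
              exact hc'0 j'
        · rw [if_neg h1, if_neg (fun hh => h1 hh.1)]
      rw [Finset.sum_congr rfl (fun p _ => hterm p), ← Finset.sum_filter, Finset.sum_const,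
        nsmul_eq_mul] at hrel
      refine (mul_eq_zero.1 hrel).resolve_left ?_
      have hpos : (Finset.univ.filter
          (fun p : Fin a × Fin (b + 1) => c' p = one ∧ p.1 = i0)).card ≠ 0 := by
        rw [← Nat.pos_iff_ne_zero, Finset.card_pos]
        refine ⟨(i0, j0), ?_⟩
        rw [Finset.mem_filter]
        refine ⟨Finset.mem_univ _, ?_, rfl⟩
        rw [hc', Function.update_self]
      exact_mod_cast hpos

/-- A highest weight vector vanishes if all rows of `lam` but the first have length at most `b`
and the first row is too short. -/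
lemma hw_eq_zero {m a b : ℕ} (lam : Fin (m + 1) → ℕ)
    (hlam : ∀ M : Fin (m + 1), M ≠ 0 → lam M ≤ b) (h0 : lam 0 < a)
    (x : Pleth a (b + 1) (m + 1)) (hx : x ∈ hwSpace lam (plethAct a (b + 1) (m + 1))) :
    x = 0 := by
  classical
  obtain ⟨l, hl⟩ := exists_elOf x
  subst hl
  apply elOf_eq_zero
  intro P hP
  apply multilinear_zero_of_span (formOf l)
    (Set.range (fun c : Fin (b + 1) → Fin (m + 1) =>
      ∏ j, (X (c j) : MvPolynomial (Fin (m + 1)) ℂ)))
  · intro w hw
    choose c hc using hw
    have hw' : formOf l w = coef l (fun p => c p.1 p.2) := by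
      rw [coef]
      congr 1
      funext i
      exact (hc i).symm
    rw [hw']
    by_contra hz
    have h1 : ∀ i, ∃ j, c i j = 0 := by
      intro i
      by_contra h2
      rw [not_exists] at h2
      exact hz (coef_zero lam l hx hlam i _ (fun p => c p.1 p.2) rfl h2)
    choose f hf using h1
    have h2 := coef_wt lam l hx _ 0 hz
    have h3 : a ≤ (Finset.univ.filter
        (fun p : Fin a × Fin (b + 1) => c p.1 p.2 = 0)).card := by
      have h4 : (Finset.univ.image (fun i : Fin a => (i, f i))) ⊆
          Finset.univ.filter (fun p : Fin a × Fin (b + 1) => c p.1 p.2 = 0) := by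
        intro p hp
        rw [Finset.mem_image] at hp
        obtain ⟨i, -, rfl⟩ := hp
        rw [Finset.mem_filter]
        exact ⟨Finset.mem_univ _, hf i⟩
      have h5 := Finset.card_le_card h4
      rwa [Finset.card_image_of_injective _ (fun i i' h => congrArg Prod.fst h),
        Finset.card_univ, Fintype.card_fin] at h5
    omega
  · intro i
    exact span_pow_eq _ _ (hP i)

section Functionals

variable {n : ℕ}

/-- The functional on `Sym^b V` attached to `b` coordinates. -/
noncomputable def phi {b : ℕ} (c : Fin b → Fin n) : Module.Dual ℂ (Sym[ℂ]^b (Fin n → ℂ)) :=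
  symEval (fun j => (LinearMap.proj (c j) : (Fin n → ℂ) →ₗ[ℂ] ℂ))

lemma span_proj : Submodule.span ℂ (Set.range
    (fun j : Fin n => (LinearMap.proj j : (Fin n → ℂ) →ₗ[ℂ] ℂ))) =
    (⊤ : Submodule ℂ (Module.Dual ℂ (Fin n → ℂ))) := by
  rw [eq_top_iff]
  intro ξ _
  have h1 : ξ = ∑ j, ξ (Pi.single j 1) • (LinearMap.proj j : (Fin n → ℂ) →ₗ[ℂ] ℂ) := by
    apply LinearMap.ext
    intro v
    rw [_root_.LinearMap.sum_apply]
    conv_lhs => rw [← Finset.univ_sum_single v]
    rw [map_sum]
    apply Finset.sum_congr rfl
    intro j _
    have h1 : (Pi.single j (v j) : Fin n → ℂ) = v j • Pi.single j 1 := by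
      rw [← Pi.single_smul, smul_eq_mul, mul_one]
    rw [h1, map_smul, smul_eq_mul, mul_comm]
    rfl
  rw [h1]
  exact Submodule.sum_mem _ (fun j _ => Submodule.smul_mem _ _ (Submodule.subset_span ⟨j, rfl⟩))

lemma span_phi (b : ℕ) : Submodule.span ℂ (Set.range (phi (n := n) (b := b))) = ⊤ := by
  set W := Submodule.span ℂ (Set.range (phi (n := n) (b := b))) with hW
  have h1 : W.dualCoannihilator = ⊥ := by
    rw [eq_bot_iff]
    intro y hy
    rw [Submodule.mem_dualCoannihilator] at hy
    rw [Submodule.mem_bot]
    apply symEval_separates _ span_proj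
    intro lam hlam
    choose c hc using hlam
    have h2 : lam = fun j => (LinearMap.proj (c j) : (Fin n → ℂ) →ₗ[ℂ] ℂ) := by
      funext j; exact (hc j).symm
    rw [h2]
    exact hy _ (Submodule.subset_span ⟨c, rfl⟩)
  have h2 := Subspace.dualCoannihilator_dualAnnihilator_eq (W := W)
  rw [h1] at h2
  rw [← h2]
  exact Submodule.dualAnnihilator_bot

/-- The first basis vector. -/
def e0 (m : ℕ) : Fin (m + 1) → ℂ := Pi.single 0 1

/-- Killing the first coordinate. -/
noncomputable def rho (m : ℕ) : (Fin (m + 1) → ℂ) →ₗ[ℂ] (Fin (m + 1) → ℂ) :=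
  LinearMap.id - (LinearMap.proj 0 : (Fin (m + 1) → ℂ) →ₗ[ℂ] ℂ).smulRight (e0 m)

lemma rho_apply (m : ℕ) (v : Fin (m + 1) → ℂ) : rho m v = v - v 0 • e0 m := rfl

lemma proj_rho (m : ℕ) (j : Fin (m + 1)) :
    (LinearMap.proj j : (Fin (m + 1) → ℂ) →ₗ[ℂ] ℂ) ∘ₗ rho m =
      if j = 0 then 0 else LinearMap.proj j := by
  apply LinearMap.ext
  intro v
  rw [LinearMap.comp_apply, rho_apply]
  by_cases hj : j = 0
  · rw [if_pos hj, hj]
    simp [e0]
  · rw [if_neg hj]
    simp [e0, Pi.single_eq_of_ne hj]

/-- Functionals killing the multiples of `e0` do not see the first coordinate. -/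
lemma annih {m b : ℕ} (φ : Module.Dual ℂ (Sym[ℂ]^(b + 1) (Fin (m + 1) → ℂ)))
    (hφ : φ ∘ₗ symCons b (e0 m) = 0) :
    φ ∈ Submodule.span ℂ (phi '' {c : Fin (b + 1) → Fin (m + 1) | ∀ j, c j ≠ 0}) := by
  classical
  -- a tensor with a multiple of `e0` is killed
  have h1 : ∀ (u : Fin (b + 1) → (Fin (m + 1) → ℂ)) (j : Fin (b + 1)) (t : ℂ), u j = t • e0 m →
      φ (SymmetricPower.tprod ℂ u) = 0 := by
    intro u j t hu
    rw [← SymmetricPower.tprod_equiv (Equiv.swap 0 j) u]
    have h2 : (fun i => u (Equiv.swap 0 j i)) =
        Fin.cons (t • e0 m) (fun i : Fin b => u (Equiv.swap 0 j i.succ)) := by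
      funext i
      refine Fin.cases ?_ (fun i => ?_) i
      · rw [Equiv.swap_apply_left, hu, Fin.cons_zero]
      · rw [Fin.cons_succ]
    have h3 : SymmetricPower.tprod ℂ (fun i => u (Equiv.swap 0 j i)) =
        symCons b (t • e0 m) (SymmetricPower.tprod ℂ (fun i : Fin b =>
          u (Equiv.swap 0 j i.succ))) := by
      rw [symCons_tprod, ← h2]
    rw [h3, symCons_smul, map_smul]
    have h4 := LinearMap.congr_fun hφ (SymmetricPower.tprod ℂ (fun i : Fin b =>
          u (Equiv.swap 0 j i.succ)))
    rw [LinearMap.comp_apply, LinearMap.zero_apply] at h4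
    rw [h4, smul_zero]
  have h2 : φ = φ ∘ₗ symMap (b + 1) (rho m) := by
    apply sym_hom_ext
    intro v
    rw [LinearMap.comp_apply, symMap_tprod]
    have h3 : v = (fun j => v j 0 • e0 m) + fun j => rho m (v j) := by
      funext j
      rw [Pi.add_apply, rho_apply]
      simp
    conv_lhs => rw [h3]
    rw [MultilinearMap.map_add_univ, map_sum]
    rw [Finset.sum_eq_single ∅]
    · rw [Finset.piecewise_empty]
    · intro s _ hs
      obtain ⟨j, hj⟩ := Finset.nonempty_iff_ne_empty.2 hs
      exact h1 _ j (v j 0) (by simp [Finset.piecewise, hj])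
    · intro h
      exact absurd (Finset.mem_univ _) h
  have h3 : ∀ ψ : Module.Dual ℂ (Sym[ℂ]^(b + 1) (Fin (m + 1) → ℂ)),
      ψ ∘ₗ symMap (b + 1) (rho m) ∈
        Submodule.span ℂ (phi '' {c : Fin (b + 1) → Fin (m + 1) | ∀ j, c j ≠ 0}) := by
    intro ψ
    have hψ : ψ ∈ Submodule.span ℂ (Set.range (phi (n := m + 1) (b := b + 1))) := by
      rw [span_phi]; trivial
    induction hψ using Submodule.span_induction with
    | mem z hz =>
      obtain ⟨c, rfl⟩ := hz
      have h4 : phi c ∘ₗ symMap (b + 1) (rho m) =
          symEval (fun j => (LinearMap.proj (c j) : (Fin (m + 1) → ℂ) →ₗ[ℂ] ℂ) ∘ₗ rho m) := by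
        apply LinearMap.ext
        intro x
        exact symEval_symMap _ _ _ x
      rw [h4]
      by_cases hc : ∀ j, c j ≠ 0
      · apply Submodule.subset_span
        refine ⟨c, hc, ?_⟩
        rw [phi]
        congr 1
        funext j
        rw [proj_rho, if_neg (hc j)]
      · rw [not_forall] at hc
        obtain ⟨j, hj⟩ := hc
        rw [not_not] at hj
        have h5 : symEval (fun j => (LinearMap.proj (c j) : (Fin (m + 1) → ℂ) →ₗ[ℂ] ℂ) ∘ₗ
            rho m) = (0 : Module.Dual ℂ (Sym[ℂ]^(b + 1) (Fin (m + 1) → ℂ))) := by
          apply sym_hom_ext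
          intro v
          rw [symEval_tprod, LinearMap.zero_apply]
          apply Finset.sum_eq_zero
          intro e _
          apply Finset.prod_eq_zero (Finset.mem_univ j)
          rw [proj_rho, if_pos hj]
          rfl
        rw [h5]
        exact Submodule.zero_mem _
    | zero => rw [LinearMap.zero_comp]; exact Submodule.zero_mem _
    | add z z' _ _ h h' => rw [LinearMap.add_comp]; exact Submodule.add_mem _ h h'
    | smul t z _ h => rw [LinearMap.smul_comp]; exact Submodule.smul_mem _ _ h
  rw [h2]
  exact h3 φ

end Functionals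

end Vale.Agent.P181.H54
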