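import Vale.Agent.P181.H54.Step

set_option autoImplicit false

open scoped TensorProduct

namespace Vale.Agent.P181.H54

open Vale.Agent.P181 Vale.Agent.P181.H280

variable {m : ℕ}

lemma addFirst_add (lam : Fin (m + 1) → ℕ) (k l : ℕ) :
    addFirst (addFirst lam k) l = addFirst lam (k + l) := by
  funext i
  simp only [addFirst]
  split_ifs <;> omega

lemma addFirst_zero (lam : Fin (m + 1) → ℕ) : addFirst lam 0 = lam := by
  funext i
  simp [addFirst]

/-- Stability, iterated. -/
theorem plethMult_stab_iter (a B : ℕ) (lam : Fin (m + 1) → ℕ)
    (hlam : ∀ i : Fin (m + 1), i ≠ 0 → lam i ≤ B) (k : ℕ) :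
    plethMult a (B + k) (m + 1) (addFirst lam (a * k)) ≤ plethMult a B (m + 1) lam := by
  induction k with
  | zero => rw [mul_zero, addFirst_zero, add_zero]
  | succ k ih =>
    refine le_trans ?_ ih
    have h1 : addFirst lam (a * (k + 1)) = addFirst (addFirst lam (a * k)) a := by
      rw [addFirst_add, Nat.mul_succ]
    rw [h1]
    apply plethMult_stab
    intro i hi
    simp only [addFirst, hi, if_false, add_zero]
    exact (hlam i hi).trans (Nat.le_add_right _ _)

/-- Monotonicity, iterated. -/
theorem plethMult_mono_iter (a B : ℕ) (lam : Fin (m + 1) → ℕ) (k : ℕ) :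
    plethMult B a (m + 1) lam ≤ plethMult (B + k) a (m + 1) (addFirst lam (a * k)) := by
  induction k with
  | zero => rw [mul_zero, addFirst_zero, add_zero]
  | succ k ih =>
    refine ih.trans ?_
    have h1 : addFirst lam (a * (k + 1)) = addFirst (addFirst lam (a * k)) a := by
      rw [addFirst_add, Nat.mul_succ]
    rw [h1]
    exact plethMult_mono a (B + k) _

/-- If the first weight is too small there are no highest weight vectors. -/
theorem plethMult_small (a B : ℕ) (lam : Fin (m + 1) → ℕ)
    (hlam : ∀ i : Fin (m + 1), i ≠ 0 → lam i ≤ B) :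
    ∀ k : ℕ, lam 0 < a * k → plethMult a (B + k) (m + 1) lam = 0 := by
  intro k
  induction k generalizing lam with
  | zero => intro h; omega
  | succ k ih =>
    intro h
    have hlam' : ∀ i : Fin (m + 1), i ≠ 0 → lam i ≤ B + k := fun i hi =>
      (hlam i hi).trans (Nat.le_add_right _ _)
    by_cases h0 : lam 0 < a
    · exact plethMult_eq_zero a (B + k) lam hlam' h0
    · rw [not_lt] at h0
      let mu : Fin (m + 1) → ℕ := fun i => lam i - if i = 0 then a else 0
      have hmu : addFirst mu a = lam := by
        funext i
        by_cases hi : i = 0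
        · subst hi
          simp only [addFirst, mu, if_true]
          omega
        · simp only [addFirst, mu, hi, if_false, add_zero, Nat.sub_zero]
      have h1 := plethMult_stab a (B + k) mu (by
        intro i hi
        simp only [mu, hi, if_false, Nat.sub_zero]
        exact hlam' i hi)
      rw [hmu] at h1
      have h2 : plethMult a (B + k) (m + 1) mu = 0 := by
        apply ih mu
        · intro i hi
          simp only [mu, hi, if_false, Nat.sub_zero]
          exact hlam i hi
        · simp only [mu, if_true]
          rw [Nat.mul_succ] at h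
          omega
      rw [h2] at h1
      exact Nat.le_zero.1 h1

/-- Foulkes' inequality for second row at most `a`. -/
theorem foulkes_secondRow (a b : ℕ) (hab : a ≤ b) (lam : Fin (m + 1) → ℕ)
    (hlam : ∀ i : Fin (m + 1), i ≠ 0 → lam i ≤ a) :
    plethMult a b (m + 1) lam ≤ plethMult b a (m + 1) lam := by
  obtain ⟨k, rfl⟩ := Nat.exists_eq_add_of_le hab
  by_cases h0 : lam 0 < a * k
  · rw [plethMult_small a a lam hlam k h0]
    exact Nat.zero_le _
  · rw [not_lt] at h0
    let mu : Fin (m + 1) → ℕ := fun i => lam i - if i = 0 then a * k else 0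
    have hmu : addFirst mu (a * k) = lam := by
      funext i
      by_cases hi : i = 0
      · subst hi
        simp only [addFirst, mu, if_true]
        omega
      · simp only [addFirst, mu, hi, if_false, add_zero, Nat.sub_zero]
    have h1 := plethMult_stab_iter a a mu (by
      intro i hi
      simp only [mu, hi, if_false, Nat.sub_zero]
      exact hlam i hi) k
    have h2 := plethMult_mono_iter (m := m) a a mu k
    rw [hmu] at h1 h2
    exact h1.trans h2

end Vale.Agent.P181.H54
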