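import Vale.Agent.P181.H54.Prop

set_option autoImplicit false

open scoped TensorProduct

namespace Vale.Agent.P181.H54

open Vale.Agent.P181 Vale.Agent.P181.H280 MvPolynomial

variable {m : ℕ}

universe u

lemma symMap_smul_apply {M N : Type u} [AddCommGroup M] [Module ℂ M] [AddCommGroup N]
    [Module ℂ N] (a : ℕ) (c : ℂ) (g : M →ₗ[ℂ] N) (x : Sym[ℂ]^a M) :
    symMap a (c • g) x = c ^ a • symMap a g x := by
  have e : symMap a (c • g) = c ^ a • symMap a g := by
    apply sym_hom_ext
    intro v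
    rw [LinearMap.smul_apply, symMap_tprod, symMap_tprod]
    have h1 := MultilinearMap.map_smul_univ (SymmetricPower.tprod ℂ (ι := Fin a) (M := N))
      (fun _ => c) (fun i => g (v i))
    rw [Finset.prod_const, Finset.card_univ, Fintype.card_fin] at h1
    rw [← h1]
    rfl
  rw [e, LinearMap.smul_apply]

lemma e0_ne_zero (m : ℕ) : e0 m ≠ 0 := by
  intro h
  have h1 := congrFun h 0
  simp [e0] at h1

lemma borel_e0 {g : Matrix (Fin (m + 1)) (Fin (m + 1)) ℂ} (hg : IsBorel g) :
    Matrix.toLin' g (e0 m) = g 0 0 • e0 m := by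
  funext i
  rw [Matrix.toLin'_apply, e0, Matrix.mulVec_single_one, Pi.smul_apply, smul_eq_mul]
  by_cases hi : i = 0
  · rw [hi, Pi.single_eq_same, mul_one]
    rfl
  · rw [Pi.single_eq_of_ne hi, mul_zero]
    exact hg.1 i 0 (Fin.pos_of_ne_zero hi)

/-- Adding a constant to the first weight. -/
def addFirst (lam : Fin (m + 1) → ℕ) (k : ℕ) : Fin (m + 1) → ℕ :=
  fun i => lam i + if i = 0 then k else 0

lemma prod_addFirst (g : Matrix (Fin (m + 1)) (Fin (m + 1)) ℂ) (lam : Fin (m + 1) → ℕ) (k : ℕ) :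
    ∏ i, g i i ^ addFirst lam k i = g 0 0 ^ k * ∏ i, g i i ^ lam i := by
  rw [Fin.prod_univ_succ, Fin.prod_univ_succ]
  simp only [addFirst, if_true, pow_add]
  have h : ∀ i : Fin m, g i.succ i.succ ^ lam i.succ * g i.succ i.succ ^
      (if i.succ = (0 : Fin (m + 1)) then k else 0) = g i.succ i.succ ^ lam i.succ := by
    intro i
    rw [if_neg (Fin.succ_ne_zero i), pow_zero, mul_one]
  rw [Finset.prod_congr rfl (fun i _ => h i)]
  ring

instance plethFinite (a b n : ℕ) : Module.Finite ℂ (Pleth a b n) :=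
  inferInstanceAs (Module.Finite ℂ (Sym[ℂ]^a (Sym[ℂ]^b (Fin n → ℂ))))

/-- **Monotonicity.** -/
theorem plethMult_mono (a b : ℕ) (lam : Fin (m + 1) → ℕ) :
    plethMult b a (m + 1) lam ≤ plethMult (b + 1) a (m + 1) (addFirst lam a) := by
  let w : Sym[ℂ]^a (Fin (m + 1) → ℂ) := SymmetricPower.tprod ℂ (fun _ => e0 m)
  have hw : w ≠ 0 := by
    intro h
    have h1 := congrArg (symEval (fun _ : Fin a =>
      (LinearMap.proj 0 : (Fin (m + 1) → ℂ) →ₗ[ℂ] ℂ))) h
    rw [symEval_const_tprod, map_zero] at h1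
    have h2 : ∏ _i : Fin a, (LinearMap.proj 0 : (Fin (m + 1) → ℂ) →ₗ[ℂ] ℂ) (e0 m) = 1 := by
      apply Finset.prod_eq_one
      intro i _
      simp [e0]
    rw [h2, mul_one] at h1
    exact Fintype.card_ne_zero (α := Equiv.Perm (Fin a)) (by exact_mod_cast h1)
  have hgw : ∀ g : Matrix (Fin (m + 1)) (Fin (m + 1)) ℂ, IsBorel g →
      symMap a (Matrix.toLin' g) w = g 0 0 ^ a • w := by
    intro g hg
    simp only [w]
    rw [symMap_tprod, borel_e0 hg]
    have h1 := MultilinearMap.map_smul_univ (SymmetricPower.tprod ℂ (ι := Fin a)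
      (M := Fin (m + 1) → ℂ)) (fun _ => g 0 0) (fun _ => e0 m)
    rw [h1, Finset.prod_const, Finset.card_univ, Fintype.card_fin]
  refine finrank_le_of_inj (symCons b w) _ _ ?_ ?_
  · intro x hx g hg
    have h1 : plethAct b a (m + 1) g x = (∏ i, g i i ^ lam i) • x := hx g hg
    change symMap (b + 1) (symMap a (Matrix.toLin' g)) (symCons b w x) = _
    rw [symMap_symCons, hgw g hg, symCons_smul, prod_addFirst]
    have h2 : symMap b (symMap a (Matrix.toLin' g)) x = (∏ i, g i i ^ lam i) • x := h1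
    rw [h2, map_smul, smul_smul]
    rfl
  · intro x _ h0
    exact symCons_injective hw x h0

/-- **Stability.** -/
theorem plethMult_stab (a b : ℕ) (lam : Fin (m + 1) → ℕ)
    (hlam : ∀ M : Fin (m + 1), M ≠ 0 → lam M ≤ b) :
    plethMult a (b + 1) (m + 1) (addFirst lam a) ≤ plethMult a b (m + 1) lam := by
  classical
  let μ : (Sym[ℂ]^b (Fin (m + 1) → ℂ)) →ₗ[ℂ] (Sym[ℂ]^(b + 1) (Fin (m + 1) → ℂ)) :=
    symCons b (e0 m)
  have hμinj : LinearMap.ker μ = ⊥ := by
    rw [LinearMap.ker_eq_bot']
    intro x hx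
    exact symCons_injective (e0_ne_zero m) x hx
  obtain ⟨s, hs⟩ := LinearMap.exists_leftInverse_of_injective μ hμinj
  have hsp : ∀ y, s (μ y) = y := fun y => LinearMap.congr_fun hs y
  -- highest weight vectors are multiples
  have key : ∀ x : Sym[ℂ]^a (Sym[ℂ]^(b + 1) (Fin (m + 1) → ℂ)),
      x ∈ hwSpace (addFirst lam a) (plethAct a (b + 1) (m + 1)) →
      symMap a μ (symMap a s x) = x := by
    intro x hx
    have hspan : Submodule.span ℂ ({φ : Module.Dual ℂ (Sym[ℂ]^(b + 1) (Fin (m + 1) → ℂ)) |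
        φ ∘ₗ (μ ∘ₗ s) = φ} ∪ {φ | φ ∘ₗ μ = 0}) = ⊤ := by
      rw [eq_top_iff]
      intro φ _
      have h1 : φ = φ ∘ₗ (μ ∘ₗ s) + (φ - φ ∘ₗ (μ ∘ₗ s)) := by abel
      rw [h1]
      apply Submodule.add_mem
      · apply Submodule.subset_span
        left
        apply LinearMap.ext
        intro z
        change φ (μ (s (μ (s z)))) = φ (μ (s z))
        rw [hsp]
      · apply Submodule.subset_span
        right
        apply LinearMap.ext
        intro z
        change φ (μ z) - φ (μ (s (μ z))) = 0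
        rw [hsp, sub_self]
    rw [symMap_comp_apply, ← sub_eq_zero]
    have hz : ∀ φ : Fin a → Module.Dual ℂ (Sym[ℂ]^(b + 1) (Fin (m + 1) → ℂ)),
        (∃ i0, φ i0 ∘ₗ μ = 0) → symEval φ x = 0 := by
      rintro φ ⟨i0, hi0⟩
      obtain ⟨l, hl⟩ := exists_elOf x
      subst hl
      have h1 := multilinear_zero_of_span_fam (symEvalM (elOf l))
        (fun i => if i = i0 then phi '' {c : Fin (b + 1) → Fin (m + 1) | ∀ j, c j ≠ 0}
          else Set.range phi) (by
          intro w hw
          have hc : ∀ i, ∃ c : Fin (b + 1) → Fin (m + 1), (i = i0 → ∀ j, c j ≠ 0) ∧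
              phi c = w i := by
            intro i
            have h2 := hw i
            by_cases hi : i = i0
            · simp only [hi, if_true] at h2
              obtain ⟨c, hc, hcw⟩ := h2
              exact ⟨c, fun _ => hc, by rw [hcw, hi]⟩
            · simp only [hi, if_false] at h2
              obtain ⟨c, hcw⟩ := h2
              exact ⟨c, fun h => absurd h hi, hcw⟩
          choose c hc0 hcw using hc
          have h3 : w = fun i => symEval (fun j =>
              (LinearMap.proj (c i j) : (Fin (m + 1) → ℂ) →ₗ[ℂ] ℂ)) := by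
            funext i
            exact (hcw i).symm
          rw [symEvalM_apply, h3]
          have h4 := symEval_elOf l (fun p => c p.1 p.2)
          rw [h4]
          apply coef_zero (addFirst lam a) l hx _ i0 _ (fun p => c p.1 p.2) rfl (hc0 i0 rfl)
          intro M hM
          simp only [addFirst, hM, if_false, add_zero]
          exact hlam M hM) φ (by
          intro i
          by_cases hi : i = i0
          · simp only [hi, if_true]
            exact annih (φ i0) hi0
          · simp only [hi, if_false]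
            rw [span_phi]
            trivial)
      exact h1
    apply symEval_separates _ hspan
    intro φ hφ
    rw [map_sub, symEval_symMap, sub_eq_zero]
    by_cases hall : ∀ i, φ i ∘ₗ (μ ∘ₗ s) = φ i
    · simp only [hall]
    · rw [not_forall] at hall
      obtain ⟨i0, hi0⟩ := hall
      have h1 : φ i0 ∘ₗ μ = 0 := (hφ i0).resolve_left hi0
      have h2 : symEval φ x = 0 := hz φ ⟨i0, h1⟩
      have h3 : symEval (fun i => φ i ∘ₗ (μ ∘ₗ s)) x = 0 :=
        hz _ ⟨i0, by rw [← LinearMap.comp_assoc, h1, LinearMap.zero_comp,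
          LinearMap.zero_comp]⟩
      exact h3.trans h2.symm
  refine finrank_le_of_inj (symMap a s) _ _ ?_ ?_
  · intro x hx g hg
    have hk := key x hx
    have h1 : symMap a (symMap (b + 1) (Matrix.toLin' g)) x =
        (∏ i, g i i ^ addFirst lam a i) • x := hx g hg
    set y : Sym[ℂ]^a (Sym[ℂ]^b (Fin (m + 1) → ℂ)) := symMap a s x with hy
    -- `μ` intertwines up to a scalar
    have h2 : symMap (b + 1) (Matrix.toLin' g) ∘ₗ μ =
        (g 0 0) • (μ ∘ₗ symMap b (Matrix.toLin' g)) := by
      apply LinearMap.ext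
      intro z
      change symMap (b + 1) (Matrix.toLin' g) (symCons b (e0 m) z) =
        g 0 0 • symCons b (e0 m) (symMap b (Matrix.toLin' g) z)
      rw [symMap_symCons, borel_e0 hg, symCons_smul]
    have h3 : ∀ z : Sym[ℂ]^a (Sym[ℂ]^b (Fin (m + 1) → ℂ)),
        symMap a (symMap (b + 1) (Matrix.toLin' g)) (symMap a μ z) =
        g 0 0 ^ a • symMap a μ (symMap a (symMap b (Matrix.toLin' g)) z) := by
      intro z
      rw [symMap_comp_apply, symMap_comp_apply, h2]
      rw [symMap_smul_apply]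
    have h4 := h3 y
    rw [hk, h1, prod_addFirst, mul_smul] at h4
    have h5 : (∏ i, g i i ^ lam i) • x =
        symMap a μ (symMap a (symMap b (Matrix.toLin' g)) y) :=
      smul_right_injective _ (pow_ne_zero a (hg.2 0)) h4
    have h6 := congrArg (symMap a s) h5
    rw [map_smul, ← hy, symMap_comp_apply, hs, symMap_id_apply] at h6
    exact h6.symm
  · intro x hx h0
    have hk := key x hx
    have h1 : symMap a s x = 0 := h0
    rw [h1, map_zero] at hk
    exact hk.symm

/-- **Vanishing.** -/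
theorem plethMult_eq_zero (a b : ℕ) (lam : Fin (m + 1) → ℕ)
    (hlam : ∀ M : Fin (m + 1), M ≠ 0 → lam M ≤ b) (h0 : lam 0 < a) :
    plethMult a (b + 1) (m + 1) lam = 0 := by
  have h1 : hwSpace lam (plethAct a (b + 1) (m + 1)) = ⊥ := by
    rw [eq_bot_iff]
    intro x hx
    exact hw_eq_zero lam hlam h0 x hx
  rw [plethMult, h1]
  exact finrank_bot ℂ _

end Vale.Agent.P181.H54
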